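import Vale.Agent.P176.Tot

set_option linter.constructorNameAsVariable false

namespace Vale.Agent.P176

open CategoryTheory

section pd
variable {R : Type} [Ring R]

def PD (R : Type) [Ring R] (M : Type) [AddCommGroup M] [Module R M] (n : ℕ) : Prop :=
  HasProjectiveDimensionLT (ModuleCat.of R M) n

def SES (R : Type) [Ring R] (M₁ M₂ M₃ : Type) [AddCommGroup M₁] [Module R M₁]
    [AddCommGroup M₂] [Module R M₂] [AddCommGroup M₃] [Module R M₃] : Prop :=
  ∃ (f : M₁ →ₗ[R] M₂) (g : M₂ →ₗ[R] M₃),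
    Function.Injective f ∧ Function.Exact f g ∧ Function.Surjective g

variable {M₁ M₂ M₃ : Type} [AddCommGroup M₁] [Module R M₁]
    [AddCommGroup M₂] [Module R M₂] [AddCommGroup M₃] [Module R M₃]

theorem PD.mono {n m : ℕ} (h : PD R M₁ n) (hnm : n ≤ m) : PD R M₁ m := by
  unfold PD at *
  exact hasProjectiveDimensionLT_of_ge _ n m hnm

theorem SES.x1 (h : SES R M₁ M₂ M₃) {n : ℕ} (h2 : PD R M₂ n) (h3 : PD R M₃ (n + 1)) :
    PD R M₁ n := by
  obtain ⟨f, g, hf, e, hg⟩ := h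
  exact (ModuleCat.shortComplex_shortExact
    (ModuleCat.shortComplexOfCompEqZero f g e.linearMap_comp_eq_zero) e hf hg).hasProjectiveDimensionLT_X₁
    n h2 h3

theorem SES.x2 (h : SES R M₁ M₂ M₃) {n : ℕ} (h1 : PD R M₁ n) (h3 : PD R M₃ n) :
    PD R M₂ n := by
  obtain ⟨f, g, hf, e, hg⟩ := h
  exact (ModuleCat.shortComplex_shortExact
    (ModuleCat.shortComplexOfCompEqZero f g e.linearMap_comp_eq_zero) e hf hg).hasProjectiveDimensionLT_X₂
    n h1 h3

theorem SES.x3 (h : SES R M₁ M₂ M₃) {n : ℕ} (h1 : PD R M₁ n) (h2 : PD R M₂ (n + 1)) :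
    PD R M₃ (n + 1) := by
  obtain ⟨f, g, hf, e, hg⟩ := h
  exact (ModuleCat.shortComplex_shortExact
    (ModuleCat.shortComplexOfCompEqZero f g e.linearMap_comp_eq_zero) e hf hg).hasProjectiveDimensionLT_X₃
    n h1 h2

theorem ses_quot (K : Submodule R M₂) : SES R K M₂ (M₂ ⧸ K) :=
  ⟨K.subtype, K.mkQ, K.injective_subtype, LinearMap.exact_subtype_mkQ K, K.mkQ_surjective⟩

theorem ses_ker (g : M₂ →ₗ[R] M₃) (hg : Function.Surjective g) : SES R (LinearMap.ker g) M₂ M₃ :=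
  ⟨(LinearMap.ker g).subtype, g, Submodule.injective_subtype _, LinearMap.exact_subtype_ker_map g, hg⟩

theorem PD.of_subsingleton [Subsingleton M₁] (n : ℕ) : PD R M₁ n := by
  refine PD.mono (n := 0) ?_ (Nat.zero_le _)
  exact (ModuleCat.isZero_of_subsingleton _).hasProjectiveDimensionLT_zero

theorem PD.of_proj [Module.Projective R M₁] : PD R M₁ 1 := by
  unfold PD; infer_instance

theorem PD.proj (h : PD R M₁ 1) : Module.Projective R M₁ := by
  rw [IsProjective.iff_projective]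
  exact projective_iff_hasProjectiveDimensionLT_one.2 h

end pd

noncomputable def DD : Bim := Classical.choice exists_Bim

abbrev YY : Type := DD.Y
abbrev XX : Type := YY →ₗ[B] B
noncomputable def LLn : ℕ := 2 * DD.n + 5

noncomputable abbrev ts {N : Type} [AddCommGroup N] [Module B N] (n : N) : B →ₗ[B] N :=
  LinearMap.toSpanSingleton B N n

structure AData (R : Type) [Ring R] where
  β : B →+* R
  π : ℕ → R
  δ : R
  x : XX → R
  βπ : ∀ b i, β b * π i = π i * β b
  βδ : ∀ b, β b * δ = δ * β b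
  ππ : ∀ i, π i * π i = π i
  ππ' : ∀ i j, i ≠ j → π i * π j = 0
  sum : ∑ i ∈ Finset.range (LLn + 1), π i = 1
  πδ : ∀ i, π (i + 1) * δ = δ * π i
  π0 : π 0 * δ = 0
  δδ : δ * δ = 0
  xadd : ∀ ξ ξ', x (ξ + ξ') = x ξ + x ξ'
  βx : ∀ b ξ, β b * x ξ = x (ξ ∘ₗ DD.r b)
  xβ : ∀ b ξ, x ξ * β b = x (ts b ∘ₗ ξ)
  xπ : ∀ ξ, x ξ * π LLn = x ξ
  πx : ∀ i ξ, π i * x ξ = x (ξ ∘ₗ DD.p i)
  δx : ∀ ξ, δ * x ξ = x (ξ ∘ₗ DD.d)
  xδ : ∀ ξ, x ξ * δ = 0

inductive GenA
  | β (b : B)
  | π (i : ℕ)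
  | δ
  | x (ξ : XX)

noncomputable abbrev ga (g : GenA) : FreeAlgebra ℤ GenA := FreeAlgebra.ι ℤ g

inductive ARel : FreeAlgebra ℤ GenA → FreeAlgebra ℤ GenA → Prop
  | β1 : ARel (ga (.β 1)) 1
  | βadd a b : ARel (ga (.β (a + b))) (ga (.β a) + ga (.β b))
  | βmul a b : ARel (ga (.β (a * b))) (ga (.β a) * ga (.β b))
  | βπ b i : ARel (ga (.β b) * ga (.π i)) (ga (.π i) * ga (.β b))
  | βδ b : ARel (ga (.β b) * ga .δ) (ga .δ * ga (.β b))
  | ππ i : ARel (ga (.π i) * ga (.π i)) (ga (.π i))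
  | ππ' i j (h : i ≠ j) : ARel (ga (.π i) * ga (.π j)) 0
  | sum : ARel (∑ i ∈ Finset.range (LLn + 1), ga (.π i)) 1
  | πδ i : ARel (ga (.π (i + 1)) * ga .δ) (ga .δ * ga (.π i))
  | π0 : ARel (ga (.π 0) * ga .δ) 0
  | δδ : ARel (ga .δ * ga .δ) 0
  | xadd ξ ξ' : ARel (ga (.x (ξ + ξ'))) (ga (.x ξ) + ga (.x ξ'))
  | βx b ξ : ARel (ga (.β b) * ga (.x ξ)) (ga (.x (ξ ∘ₗ DD.r b)))
  | xβ b ξ : ARel (ga (.x ξ) * ga (.β b)) (ga (.x (ts b ∘ₗ ξ)))
  | xπ ξ : ARel (ga (.x ξ) * ga (.π LLn)) (ga (.x ξ))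
  | πx i ξ : ARel (ga (.π i) * ga (.x ξ)) (ga (.x (ξ ∘ₗ DD.p i)))
  | δx ξ : ARel (ga .δ * ga (.x ξ)) (ga (.x (ξ ∘ₗ DD.d)))
  | xδ ξ : ARel (ga (.x ξ) * ga .δ) 0

def A : Type := RingQuot ARel

noncomputable instance : Ring A := inferInstanceAs (Ring (RingQuot ARel))

noncomputable def amk : FreeAlgebra ℤ GenA →+* A := RingQuot.mkRingHom ARel

theorem amk_rel {x y} (h : ARel x y) : amk x = amk y := RingQuot.mkRingHom_rel h

noncomputable def AA : AData A where
  β := RingHom.mk' ⟨⟨fun b => amk (ga (.β b)), by rw [amk_rel ARel.β1, map_one]⟩,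
    fun a b => (amk_rel (ARel.βmul a b)).trans (map_mul amk _ _)⟩
    (fun a b => by
      show amk (ga (.β (a + b))) = amk (ga (.β a)) + amk (ga (.β b))
      rw [amk_rel (ARel.βadd a b), map_add])
  π i := amk (ga (.π i))
  δ := amk (ga .δ)
  x ξ := amk (ga (.x ξ))
  βπ b i := ((map_mul amk _ _).symm.trans (amk_rel (ARel.βπ b i))).trans (map_mul amk _ _)
  βδ b := ((map_mul amk _ _).symm.trans (amk_rel (ARel.βδ b))).trans (map_mul amk _ _)
  ππ i := (map_mul amk _ _).symm.trans (amk_rel (ARel.ππ i))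
  ππ' i j h := ((map_mul amk _ _).symm.trans (amk_rel (ARel.ππ' i j h))).trans (map_zero amk)
  sum := ((map_sum amk _ _).symm.trans (amk_rel ARel.sum)).trans (map_one amk)
  πδ i := ((map_mul amk _ _).symm.trans (amk_rel (ARel.πδ i))).trans (map_mul amk _ _)
  π0 := ((map_mul amk _ _).symm.trans (amk_rel ARel.π0)).trans (map_zero amk)
  δδ := ((map_mul amk _ _).symm.trans (amk_rel ARel.δδ)).trans (map_zero amk)
  xadd a b := (amk_rel (ARel.xadd a b)).trans (map_add amk _ _)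
  βx b i := (map_mul amk _ _).symm.trans (amk_rel (ARel.βx b i))
  xβ b i := (map_mul amk _ _).symm.trans (amk_rel (ARel.xβ b i))
  xπ i := (map_mul amk _ _).symm.trans (amk_rel (ARel.xπ i))
  πx b i := (map_mul amk _ _).symm.trans (amk_rel (ARel.πx b i))
  δx i := (map_mul amk _ _).symm.trans (amk_rel (ARel.δx i))
  xδ i := ((map_mul amk _ _).symm.trans (amk_rel (ARel.xδ i))).trans (map_zero amk)

noncomputable def AData.gen {R : Type} [Ring R] (D : AData R) : GenA → R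
  | .β b => D.β b
  | .π i => D.π i
  | .δ => D.δ
  | .x ξ => D.x ξ

noncomputable def AData.lift {R : Type} [Ring R] (D : AData R) : A →+* R :=
  RingQuot.lift ⟨(FreeAlgebra.lift ℤ D.gen).toRingHom, by
    intro x y h
    cases h <;> simp only [AlgHom.toRingHom_eq_coe, RingHom.coe_coe, map_mul, map_add, map_zero,
      map_one, map_sum, FreeAlgebra.lift_ι_apply, AData.gen]
    · exact D.βπ _ _
    · exact D.βδ _
    · exact D.ππ _
    · exact D.ππ' _ _ ‹_›
    · exact D.sum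
    · exact D.πδ _
    · exact D.π0
    · exact D.δδ
    · exact D.xadd _ _
    · exact D.βx _ _
    · exact D.xβ _ _
    · exact D.xπ _
    · exact D.πx _ _
    · exact D.δx _
    · exact D.xδ _⟩

theorem AData.lift_gen {R : Type} [Ring R] (D : AData R) (g : GenA) :
    D.lift (amk (ga g)) = D.gen g := by
  refine (RingQuot.lift_mkRingHom_apply _ _ _).trans ?_
  exact FreeAlgebra.lift_ι_apply _ _

theorem AData.lift_β {R : Type} [Ring R] (D : AData R) (b) : D.lift (AA.β b) = D.β b :=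
  D.lift_gen (.β b)
theorem AData.lift_π {R : Type} [Ring R] (D : AData R) (b) : D.lift (AA.π b) = D.π b :=
  D.lift_gen (.π b)
theorem AData.lift_δ {R : Type} [Ring R] (D : AData R) : D.lift AA.δ = D.δ :=
  D.lift_gen .δ
theorem AData.lift_x {R : Type} [Ring R] (D : AData R) (b) : D.lift (AA.x b) = D.x b :=
  D.lift_gen (.x b)

theorem A_ind {P : A → Prop} (hβ : ∀ b, P (AA.β b)) (hπ : ∀ i, P (AA.π i)) (hδ : P AA.δ)
    (hx : ∀ ξ, P (AA.x ξ))
    (hadd : ∀ x y, P x → P y → P (x + y)) (hmul : ∀ x y, P x → P y → P (x * y))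
    (a : A) : P a := by
  obtain ⟨y, rfl⟩ : ∃ y, amk y = a := RingQuot.mkRingHom_surjective ARel a
  induction y using FreeAlgebra.induction with
  | grade0 r =>
    have : amk (algebraMap ℤ _ r) = AA.β (r : B) := by simp
    rw [this]; exact hβ _
  | grade1 g => cases g; exacts [hβ _, hπ _, hδ, hx _]
  | mul x y hx hy => rw [map_mul]; exact hmul _ _ hx hy
  | add x y hx hy => rw [map_add]; exact hadd _ _ hx hy

def mkLin {M M' : Type} [AddCommGroup M] [Module A M] [AddCommGroup M'] [Module A M']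
    (f : M →+ M') (hβ : ∀ b m, f (AA.β b • m) = AA.β b • f m)
    (hπ : ∀ i m, f (AA.π i • m) = AA.π i • f m) (hδ : ∀ m, f (AA.δ • m) = AA.δ • f m)
    (hx : ∀ ξ m, f (AA.x ξ • m) = AA.x ξ • f m) : M →ₗ[A] M' where
  toFun := f
  map_add' := f.map_add
  map_smul' a := by
    induction a using A_ind with
    | hβ b => exact hβ b
    | hπ i => exact hπ i
    | hδ => exact hδ
    | hx ξ => exact hx ξ
    | hadd x y hx hy =>
      intro m
      simp only [RingHom.id_apply] at *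
      rw [add_smul, add_smul, map_add, hx, hy]
    | hmul x y hx hy =>
      intro m
      simp only [RingHom.id_apply] at *
      rw [mul_smul, mul_smul, hx, hy]

def mkSub {M : Type} [AddCommGroup M] [Module A M] (K : AddSubgroup M)
    (hβ : ∀ b m, m ∈ K → AA.β b • m ∈ K) (hπ : ∀ i m, m ∈ K → AA.π i • m ∈ K)
    (hδ : ∀ m, m ∈ K → AA.δ • m ∈ K) (hx : ∀ ξ m, m ∈ K → AA.x ξ • m ∈ K) : Submodule A M where
  carrier := K
  add_mem' := K.add_mem
  zero_mem' := K.zero_mem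
  smul_mem' a := by
    induction a using A_ind with
    | hβ b => exact fun h => hβ b _ h
    | hπ i => exact fun h => hπ i _ h
    | hδ => exact fun h => hδ _ h
    | hx ξ => exact fun h => hx ξ _ h
    | hadd x y hx hy => intro m h; rw [add_smul]; exact K.add_mem (hx h) (hy h)
    | hmul x y hx hy => intro m h; rw [mul_smul]; exact hx (hy h)

theorem AData.x0 {R : Type} [Ring R] (D : AData R) : D.x 0 = 0 := by
  have := D.xadd 0 0
  rw [add_zero] at this
  exact left_eq_add.1 this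

theorem AData.πbig {R : Type} [Ring R] (D : AData R) {i : ℕ} (hi : LLn < i) : D.π i = 0 := by
  rw [← mul_one (D.π i), ← D.sum, Finset.mul_sum]
  exact Finset.sum_eq_zero fun j hj => D.ππ' _ _ (by rw [Finset.mem_range] at hj; omega)

theorem pbig {i : ℕ} (hi : 2 * DD.n < i) : DD.p i = 0 := by
  rw [← mul_one (DD.p i), ← DD.psum, Finset.mul_sum]
  exact Finset.sum_eq_zero fun j hj => DD.pp' _ _ (by rw [Finset.mem_range] at hj; omega)

theorem psum' : ∑ i ∈ Finset.range (LLn + 1), DD.p i = 1 := by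
  rw [← DD.psum]
  symm
  refine Finset.sum_subset (fun i hi => ?_) (fun i _ hi => pbig ?_)
  · simp only [Finset.mem_range, LLn] at *; omega
  · simp only [Finset.mem_range] at hi; omega

end Vale.Agent.P176
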