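import Vale.Agent.P176.Reps

set_option linter.constructorNameAsVariable false

namespace Vale.Agent.P176

inductive Gen
  | e (v : Fin 3)
  | a (g : S)
  | b (g : S)

open FreeAlgebra in
inductive BRel : FreeAlgebra F2 Gen → FreeAlgebra F2 Gen → Prop
  | ee v : BRel (ι F2 (Gen.e v) * ι F2 (Gen.e v)) (ι F2 (Gen.e v))
  | ee' v w (h : v ≠ w) : BRel (ι F2 (Gen.e v) * ι F2 (Gen.e w)) 0
  | sum : BRel (ι F2 (Gen.e 0) + ι F2 (Gen.e 1) + ι F2 (Gen.e 2)) 1
  | ea g : BRel (ι F2 (Gen.e 1) * ι F2 (Gen.a g)) (ι F2 (Gen.a g))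
  | ae g : BRel (ι F2 (Gen.a g) * ι F2 (Gen.e 0)) (ι F2 (Gen.a g))
  | eb g : BRel (ι F2 (Gen.e 2) * ι F2 (Gen.b g)) (ι F2 (Gen.b g))
  | be g : BRel (ι F2 (Gen.b g) * ι F2 (Gen.e 1)) (ι F2 (Gen.b g))
  | rel p q r s (h : Rel (p, q, r, s)) :
      BRel (ι F2 (Gen.b p) * ι F2 (Gen.a q)) (ι F2 (Gen.b r) * ι F2 (Gen.a s))

def B : Type := RingQuot BRel

noncomputable instance : Ring B := inferInstanceAs (Ring (RingQuot BRel))
noncomputable instance : Algebra F2 B := inferInstanceAs (Algebra F2 (RingQuot BRel))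

structure BData (R : Type*) [Ring R] where
  e : Fin 3 → R
  a : S → R
  b : S → R
  ee : ∀ v, e v * e v = e v
  ee' : ∀ v w, v ≠ w → e v * e w = 0
  sum : e 0 + e 1 + e 2 = 1
  ea : ∀ g, e 1 * a g = a g
  ae : ∀ g, a g * e 0 = a g
  eb : ∀ g, e 2 * b g = b g
  be : ∀ g, b g * e 1 = b g
  rel : ∀ p q r s, Rel (p, q, r, s) → b p * a q = b r * a s

noncomputable def bmk : FreeAlgebra F2 Gen →ₐ[F2] B := RingQuot.mkAlgHom F2 BRel

theorem bmk_rel {x y} (h : BRel x y) : bmk x = bmk y := RingQuot.mkAlgHom_rel F2 h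

noncomputable def BB : BData B where
  e v := bmk (FreeAlgebra.ι F2 (Gen.e v))
  a g := bmk (FreeAlgebra.ι F2 (Gen.a g))
  b g := bmk (FreeAlgebra.ι F2 (Gen.b g))
  ee v := by rw [← map_mul]; exact bmk_rel (BRel.ee v)
  ee' v w h := by rw [← map_mul, ← map_zero bmk]; exact bmk_rel (BRel.ee' v w h)
  sum := by rw [← map_add, ← map_add, ← map_one bmk]; exact bmk_rel BRel.sum
  ea g := by rw [← map_mul]; exact bmk_rel (BRel.ea g)
  ae g := by rw [← map_mul]; exact bmk_rel (BRel.ae g)
  eb g := by rw [← map_mul]; exact bmk_rel (BRel.eb g)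
  be g := by rw [← map_mul]; exact bmk_rel (BRel.be g)
  rel p q r s h := by rw [← map_mul, ← map_mul]; exact bmk_rel (BRel.rel p q r s h)

def BData.gen {R : Type*} [Ring R] (D : BData R) : Gen → R
  | .e v => D.e v
  | .a g => D.a g
  | .b g => D.b g

noncomputable def BData.lift {R : Type*} [Ring R] [Algebra F2 R] (D : BData R) : B →ₐ[F2] R :=
  RingQuot.liftAlgHom F2 ⟨FreeAlgebra.lift F2 D.gen, by
    intro x y h
    cases h <;> simp only [map_mul, map_add, map_zero, map_one, FreeAlgebra.lift_ι_apply, BData.gen]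
    · exact D.ee _
    · exact D.ee' _ _ ‹_›
    · exact D.sum
    · exact D.ea _
    · exact D.ae _
    · exact D.eb _
    · exact D.be _
    · exact D.rel _ _ _ _ ‹_›⟩

theorem BData.lift_gen {R : Type*} [Ring R] [Algebra F2 R] (D : BData R) (g : Gen) :
    D.lift (bmk (FreeAlgebra.ι F2 g)) = D.gen g := by
  refine (RingQuot.liftAlgHom_mkAlgHom_apply F2 _ _ _).trans ?_
  rw [FreeAlgebra.lift_ι_apply]

theorem BData.lift_e {R : Type*} [Ring R] [Algebra F2 R] (D : BData R) (v) :
    D.lift (BB.e v) = D.e v := D.lift_gen (.e v)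
theorem BData.lift_a {R : Type*} [Ring R] [Algebra F2 R] (D : BData R) (v) :
    D.lift (BB.a v) = D.a v := D.lift_gen (.a v)
theorem BData.lift_b {R : Type*} [Ring R] [Algebra F2 R] (D : BData R) (v) :
    D.lift (BB.b v) = D.b v := D.lift_gen (.b v)

theorem B_ind {P : B → Prop} (he : ∀ v, P (BB.e v)) (ha : ∀ g, P (BB.a g)) (hb : ∀ g, P (BB.b g))
    (h0 : P 0) (hadd : ∀ x y, P x → P y → P (x + y)) (hmul : ∀ x y, P x → P y → P (x * y))
    (x : B) : P x := by
  obtain ⟨y, rfl⟩ : ∃ y, bmk y = x := RingQuot.mkAlgHom_surjective F2 BRel x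
  induction y using FreeAlgebra.induction with
  | grade0 r =>
    have : r = 0 ∨ r = 1 := by revert r; decide
    rcases this with rfl | rfl
    · simpa using h0
    · rw [map_one, map_one, ← BB.sum]; exact hadd _ _ (hadd _ _ (he _) (he _)) (he _)
  | grade1 g => cases g; exacts [he _, ha _, hb _]
  | mul x y hx hy => rw [map_mul]; exact hmul _ _ hx hy
  | add x y hx hy => rw [map_add]; exact hadd _ _ hx hy

theorem two_B : (1 : B) + 1 = 0 := by
  have : (1 : F2) + 1 = 0 := by decide
  rw [← map_one (algebraMap F2 B), ← map_add, this, map_zero]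

theorem B_add_self (x : B) : x + x = 0 := by
  rw [← one_mul x, ← add_mul, two_B, zero_mul]

theorem e_sum : ∑ v, BB.e v = 1 := by rw [Fin.sum_univ_three, BB.sum]

theorem B_tri (x : B) : ∀ w v, (w < v → BB.e w * x * BB.e v = 0) ∧
    (BB.e v * x * BB.e v = 0 ∨ BB.e v * x * BB.e v = BB.e v) := by
  have key : ∀ (y : B) (i j : Fin 3), j < i → BB.e i * y = y → y * BB.e j = y →
      ∀ w v, w ≤ v → BB.e w * y * BB.e v = 0 := by
    intro y i j hij h1 h2 w v hwv
    by_cases hw : w = i
    · rw [mul_assoc, ← h2, mul_assoc, BB.ee' j v (by omega)]; simp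
    · rw [← h1, ← mul_assoc, BB.ee' w i hw]; simp
  induction x using B_ind with
  | he u =>
    intro w v
    refine ⟨fun h => ?_, ?_⟩
    · by_cases hw : w = u
      · rw [mul_assoc, BB.ee' u v (by omega), mul_zero]
      · rw [BB.ee' w u hw, zero_mul]
    · by_cases hw : v = u
      · right; rw [hw, BB.ee, BB.ee]
      · left; rw [BB.ee' v u hw, zero_mul]
  | ha g =>
    intro w v
    exact ⟨fun h => key _ 1 0 (by decide) (BB.ea g) (BB.ae g) w v h.le,
      Or.inl (key _ 1 0 (by decide) (BB.ea g) (BB.ae g) v v le_rfl)⟩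
  | hb g =>
    intro w v
    exact ⟨fun h => key _ 2 1 (by decide) (BB.eb g) (BB.be g) w v h.le,
      Or.inl (key _ 2 1 (by decide) (BB.eb g) (BB.be g) v v le_rfl)⟩
  | h0 => simp
  | hadd x y hx hy =>
    intro w v
    refine ⟨fun h => by rw [mul_add, add_mul, (hx w v).1 h, (hy w v).1 h, add_zero], ?_⟩
    rw [mul_add, add_mul]
    rcases (hx w v).2 with h | h <;> rcases (hy w v).2 with h' | h' <;> rw [h, h'] <;>
      simp [B_add_self]
  | hmul x y hx hy =>
    have e : ∀ w v, BB.e w * (x * y) * BB.e v =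
        ∑ u, (BB.e w * x * BB.e u) * (BB.e u * y * BB.e v) := by
      intro w v
      calc BB.e w * (x * y) * BB.e v = BB.e w * x * (∑ u, BB.e u) * y * BB.e v := by
            rw [e_sum]; noncomm_ring
        _ = _ := by
            rw [Finset.mul_sum, Finset.sum_mul, Finset.sum_mul]
            refine Finset.sum_congr rfl fun u _ => ?_
            nth_rewrite 1 [← BB.ee u]
            noncomm_ring
    intro w v
    refine ⟨fun h => ?_, ?_⟩
    · rw [e]
      refine Finset.sum_eq_zero fun u _ => ?_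
      by_cases hu : w < u
      · rw [(hx w u).1 hu, zero_mul]
      · rw [(hy u v).1 (by omega), mul_zero]
    · rw [e, Finset.sum_eq_single v]
      · rcases (hx w v).2 with h | h <;> rcases (hy w v).2 with h' | h' <;> rw [h, h'] <;>
          simp [BB.ee]
      · intro u _ hu
        by_cases hu' : v < u
        · rw [(hx v u).1 hu', zero_mul]
        · rw [(hy u v).1 (by omega), mul_zero]
      · simp

instance B_modfin : Module.Finite F2 B := by
  classical
  let T : Set B := Set.range BB.e ∪ Set.range BB.a ∪ Set.range BB.b ∪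
    Set.range (fun p : S × S => BB.b p.1 * BB.a p.2)
  have hT : T.Finite := by
    refine (((Set.finite_range _).union (Set.finite_range _)).union (Set.finite_range _)).union
      (Set.finite_range _)
  have me : ∀ v, BB.e v ∈ Submodule.span F2 T := fun v => Submodule.subset_span (by simp [T])
  have ma : ∀ v, BB.a v ∈ Submodule.span F2 T := fun v => Submodule.subset_span (by simp [T])
  have mb : ∀ v, BB.b v ∈ Submodule.span F2 T := fun v => Submodule.subset_span (by simp [T])
  have mba : ∀ p q, BB.b p * BB.a q ∈ Submodule.span F2 T := fun p q =>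
    Submodule.subset_span (Or.inr ⟨(p, q), rfl⟩)
  have red : ∀ x : B, (∀ y ∈ T, x * y ∈ Submodule.span F2 T) →
      ∀ y ∈ Submodule.span F2 T, x * y ∈ Submodule.span F2 T := by
    intro x hx y hy
    induction hy using Submodule.span_induction with
    | mem y hy => exact hx y hy
    | zero => simp
    | add y y' _ _ h h' => rw [mul_add]; exact add_mem h h'
    | smul c y _ h => rw [mul_smul_comm]; exact Submodule.smul_mem _ _ h
  have z : ∀ (x y : B) (i j : Fin 3), x * BB.e i = x → BB.e j * y = y → i ≠ j →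
      x * y ∈ Submodule.span F2 T := by
    intro x y i j h1 h2 h
    rw [← h1, ← h2, mul_assoc, ← mul_assoc (BB.e i), BB.ee' i j h]; simp
  have eba : ∀ p q, BB.e 2 * (BB.b p * BB.a q) = BB.b p * BB.a q := fun p q => by
    rw [← mul_assoc, BB.eb]
  have key : ∀ x : B, ∀ y ∈ Submodule.span F2 T, x * y ∈ Submodule.span F2 T := by
    intro x
    induction x using B_ind with
    | he u =>
      apply red
      have : ∀ y j, y ∈ Submodule.span F2 T → BB.e j * y = y → BB.e u * y ∈ Submodule.span F2 T := by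
        intro y j hy h
        by_cases hu : u = j
        · rw [hu, h]; exact hy
        · exact z _ _ u j (BB.ee u) h hu
      rintro y (((⟨v, rfl⟩ | ⟨v, rfl⟩) | ⟨v, rfl⟩) | ⟨v, rfl⟩)
      · exact this _ v (me v) (BB.ee v)
      · exact this _ 1 (ma v) (BB.ea v)
      · exact this _ 2 (mb v) (BB.eb v)
      · exact this _ 2 (mba _ _) (eba _ _)
    | ha g =>
      apply red
      rintro y (((⟨v, rfl⟩ | ⟨v, rfl⟩) | ⟨v, rfl⟩) | ⟨v, rfl⟩)
      · by_cases hv : 0 = v
        · rw [← hv, BB.ae]; exact ma _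
        · exact z _ _ 0 v (BB.ae g) (BB.ee v) hv
      · exact z _ _ 0 1 (BB.ae g) (BB.ea v) (by decide)
      · exact z _ _ 0 2 (BB.ae g) (BB.eb v) (by decide)
      · exact z _ _ 0 2 (BB.ae g) (eba _ _) (by decide)
    | hb g =>
      apply red
      rintro y (((⟨v, rfl⟩ | ⟨v, rfl⟩) | ⟨v, rfl⟩) | ⟨v, rfl⟩)
      · by_cases hv : 1 = v
        · rw [← hv, BB.be]; exact mb _
        · exact z _ _ 1 v (BB.be g) (BB.ee v) hv
      · exact mba _ _
      · exact z _ _ 1 2 (BB.be g) (BB.eb v) (by decide)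
      · exact z _ _ 1 2 (BB.be g) (eba _ _) (by decide)
    | h0 => simp
    | hadd x x' h h' => intro y hy; rw [add_mul]; exact add_mem (h y hy) (h' y hy)
    | hmul x x' h h' => intro y hy; rw [mul_assoc]; exact h _ (h' y hy)
  refine ⟨⟨hT.toFinset, ?_⟩⟩
  rw [Set.Finite.coe_toFinset, eq_top_iff]
  intro x _
  have h1 : (1 : B) ∈ Submodule.span F2 T := by
    rw [← BB.sum]; exact add_mem (add_mem (me _) (me _)) (me _)
  simpa using key x 1 h1

instance : Finite B := Module.finite_of_finite F2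

def Md (ρ : Rep) : Type := Fin 3 → ρ.U

instance (ρ : Rep) : AddCommGroup (Md ρ) := inferInstanceAs (AddCommGroup (Fin 3 → ρ.U))
instance (ρ : Rep) : Finite (Md ρ) := inferInstanceAs (Finite (Fin 3 → ρ.U))

noncomputable def arrow (ρ : Rep) (i j : Fin 3) (φ : Module.End F2 ρ.U) :
    Module.End F2 (Fin 3 → ρ.U) :=
  LinearMap.single F2 (fun _ => ρ.U) j ∘ₗ φ ∘ₗ LinearMap.proj i

theorem arrow_apply (ρ : Rep) (i j : Fin 3) (φ : Module.End F2 ρ.U) (m : Fin 3 → ρ.U) :
    arrow ρ i j φ m = Pi.single j (φ (m i)) := rfl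

noncomputable def mdData (ρ : Rep) : BData (Module.End F2 (Fin 3 → ρ.U)) where
  e v := arrow ρ v v 1
  a g := arrow ρ 0 1 (ρ.f g)
  b g := arrow ρ 1 2 (ρ.f g)
  ee v := by refine LinearMap.ext fun m => ?_; simp [arrow_apply]
  ee' v w h := by refine LinearMap.ext fun m => ?_; simp [arrow_apply, h]
  sum := by refine LinearMap.ext fun m => ?_; funext i; fin_cases i <;> simp [arrow_apply]
  ea g := by refine LinearMap.ext fun m => ?_; simp [arrow_apply]
  ae g := by refine LinearMap.ext fun m => ?_; simp [arrow_apply]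
  eb g := by refine LinearMap.ext fun m => ?_; simp [arrow_apply]
  be g := by refine LinearMap.ext fun m => ?_; simp [arrow_apply]
  rel p q r s h := by
    refine LinearMap.ext fun m => ?_
    have := ρ.good.rel p q r s h
    simp only [Module.End.mul_apply, arrow_apply, Pi.single_eq_same]
    rw [← Module.End.mul_apply, ← Module.End.mul_apply, ← Units.val_mul, ← Units.val_mul, this]

noncomputable instance (ρ : Rep) : Module B (Md ρ) :=
  Module.compHom (Fin 3 → ρ.U) (mdData ρ).lift.toRingHom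

theorem md_e (ρ : Rep) (v : Fin 3) (m : Md ρ) :
    BB.e v • m = (Pi.single v (m v) : Fin 3 → ρ.U) := by
  show (mdData ρ).lift (BB.e v) m = _
  rw [BData.lift_e]; rfl

theorem md_a (ρ : Rep) (g : S) (m : Md ρ) :
    BB.a g • m = (Pi.single 1 ((ρ.f g : Module.End F2 ρ.U) (m 0)) : Fin 3 → ρ.U) := by
  show (mdData ρ).lift (BB.a g) m = _
  rw [BData.lift_a]; rfl

theorem md_b (ρ : Rep) (g : S) (m : Md ρ) :
    BB.b g • m = (Pi.single 2 ((ρ.f g : Module.End F2 ρ.U) (m 1)) : Fin 3 → ρ.U) := by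
  show (mdData ρ).lift (BB.b g) m = _
  rw [BData.lift_b]; rfl

end Vale.Agent.P176
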