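import Vale.Agent.P176.Small

set_option linter.constructorNameAsVariable false

namespace Vale.Agent.P176

def XK (M : Type) [AddCommGroup M] [Module A M] : Prop := ∀ ξ (m : M), AA.x ξ • m = 0

section
variable {M K : Type} [AddCommGroup M] [Module A M] [AddCommGroup K] [Module A K]

theorem pp_smul (j i : ℕ) (m : M) : AA.π j • AA.π i • m = if j = i then AA.π i • m else 0 := by
  rw [← mul_smul, ππi]; split_ifs <;> simp

theorem pd_smul (j : ℕ) (m : M) : AA.π (j + 1) • AA.δ • m = AA.δ • AA.π j • m := by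
  rw [← mul_smul, AA.πδ, mul_smul]

theorem p0_smul (m : M) : AA.π 0 • AA.δ • m = 0 := by rw [← mul_smul, AA.π0, zero_smul]

theorem dd_smul (m : M) : AA.δ • AA.δ • m = 0 := by rw [← mul_smul, AA.δδ, zero_smul]

theorem pb_smul (j : ℕ) (b : B) (m : M) : AA.π j • AA.β b • m = AA.β b • AA.π j • m := by
  rw [← mul_smul, ← AA.βπ, mul_smul]

theorem db_smul (b : B) (m : M) : AA.δ • AA.β b • m = AA.β b • AA.δ • m := by
  rw [← mul_smul, ← AA.βδ, mul_smul]

theorem sum_smul' (m : M) : ∑ j ∈ Finset.range (LLn + 1), AA.π j • m = m := by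
  rw [← Finset.sum_smul, AA.sum, one_smul]

theorem XK.quot (h : XK M) (T : Submodule A M) : XK (M ⧸ T) := by
  intro ξ m
  obtain ⟨m, rfl⟩ := Submodule.Quotient.mk_surjective _ m
  rw [← Submodule.Quotient.mk_smul, h, Submodule.Quotient.mk_zero]

theorem XK.sub (h : XK M) (T : Submodule A M) : XK T := fun ξ m => Subtype.ext (h ξ m.1)

theorem fin_quot [Finite M] (T : Submodule A M) : Finite (M ⧸ T) :=
  Finite.of_surjective _ T.mkQ_surjective

end

theorem exact_pd (M : Type) [AddCommGroup M] [Module A M] [Finite M] (hX : XK M)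
    (hE : ∀ j, Ex M j) : PD A M 3 := by
  suffices H : ∀ k ≤ LLn + 1, ∀ (M : Type) [AddCommGroup M] [Module A M] [Finite M], XK M →
      (∀ j, Ex M j) → (∀ j, j + k ≤ LLn → ∀ m : M, AA.π j • m = 0) → PD A M 3 from
    H _ le_rfl M hX hE (fun j hj => by omega)
  intro k
  induction k with
  | zero =>
    intro _ M _ _ _ _ _ h
    have : ∀ a : M, a = 0 := fun a => by
      rw [← sum_smul' a]
      exact Finset.sum_eq_zero fun j hj => h j (by rw [Finset.mem_range] at hj; omega) a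
    have : Subsingleton M := ⟨fun a b => by rw [this a, this b]⟩
    exact PD.of_subsingleton _
  | succ k ih =>
    intro hk M _ _ _ hX hE h
    obtain ⟨i, hik⟩ : ∃ i, i + k = LLn := ⟨LLn - k, by omega⟩
    have inj : ∀ m : M, AA.π i • m = m → AA.δ • m = 0 → m = 0 := by
      intro m h1 h2
      obtain ⟨m', hm⟩ := hE i m h1 h2
      rw [← h1, hm]
      rcases i with _ | i
      · exact p0_smul _
      · rw [pd_smul, h i (by omega), smul_zero]
    by_cases hi : i = LLn
    · refine ih (by omega) M hX hE fun j hj m => ?_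
      by_cases hj' : j = i
      · subst hj'
        refine inj _ (by rw [pp_smul, if_pos rfl]) ?_
        rw [← pd_smul, AA.πbig (by omega), zero_smul]
      · exact h j (by omega) m
    have hi : i < LLn := by omega
    let _ : Module B M := Module.compHom M AA.β
    have hb : ∀ (b : B) (m : M), b • m = AA.β b • m := fun _ _ => rfl
    let N : Submodule B M :=
      { carrier := {m | AA.π i • m = m}
        add_mem' := fun {a b} ha hb => by
          simp only [Set.mem_ofPred_eq] at *; rw [smul_add, ha, hb]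
        zero_mem' := by simp
        smul_mem' := fun c a ha => by
          simp only [Set.mem_ofPred_eq, hb] at *; rw [pb_smul, ha] }
    have hN : ∀ n : N, AA.π i • n.1 = n.1 := fun n => n.2
    have e1 : ∀ j (n : N), AA.π j • n.1 = if j = i then n.1 else 0 := fun j n => by
      rw [← hN n, pp_smul]
    have e2 : ∀ j (n : N), AA.π j • AA.δ • n.1 = if j = i + 1 then AA.δ • n.1 else 0 :=
      fun j n => by rw [← hN n, ← pd_smul, pp_smul]
    let f : DT i N →ₗ[A] M := mkLin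
      (AddMonoidHom.mk' (fun m => m.1.1 + AA.δ • m.2.1) (fun a b => by
        simp only [DT.add_1, DT.add_2, Submodule.coe_add, smul_add]; abel))
      (fun b m => by
        simp only [D_β, AddMonoidHom.mk'_apply, DT.mk_1, DT.mk_2, Submodule.coe_smul, hb, smul_add,
          db_smul])
      (fun j m => by
        simp only [D_π hi, AddMonoidHom.mk'_apply, DT.mk_1, DT.mk_2, smul_add, e1, e2]
        split_ifs <;> simp)
      (fun m => by
        simp [D_δ, dd_smul])
      (fun ξ m => by rw [D_x, map_zero, hX])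
    have hf : ∀ m, f m = m.1.1 + AA.δ • m.2.1 := fun _ => rfl
    have finj : Function.Injective f := by
      rw [injective_iff_map_eq_zero]
      intro m hm
      have h1 : m.1.1 = 0 := by
        have := congrArg (AA.π i • ·) hm
        simpa [hf, e1, e2] using this
      rw [hf, h1, zero_add] at hm
      exact DT.ext (Subtype.ext h1) (Subtype.ext (inj _ (hN _) hm))
    have s : SES A (DT i N) M (M ⧸ LinearMap.range f) :=
      ⟨f, (LinearMap.range f).mkQ, finj, LinearMap.exact_map_mkQ_range f,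
        (LinearMap.range f).mkQ_surjective⟩
    have := fin_quot (LinearMap.range f)
    have low : ∀ j ≤ i, ∀ m : M, AA.π j • m ∈ LinearMap.range f := by
      intro j hj m
      by_cases hj' : j = i
      · subst hj'
        exact ⟨DT.mk j ⟨AA.π j • m, by show AA.π j • _ = _; rw [pp_smul, if_pos rfl]⟩ 0,
          by simp [hf]⟩
      · rw [h j (by omega)]; exact zero_mem _
    refine s.x2 (D_pd hi N) (ih (by omega) _ (hX.quot _) ?_ ?_)
    · intro j m h1 h2
      obtain ⟨m, rfl⟩ := Submodule.Quotient.mk_surjective _ m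
      by_cases hj : j ≤ i
      · refine ⟨0, ?_⟩
        rw [← h1, ← Submodule.Quotient.mk_smul, smul_zero, Submodule.Quotient.mk_eq_zero]
        exact low j hj m
      · rw [← h1, ← Submodule.Quotient.mk_smul, ← Submodule.Quotient.mk_smul,
          Submodule.Quotient.mk_eq_zero] at h2
        obtain ⟨d, hd⟩ := h2
        have : AA.δ • AA.π j • m = 0 := by
          have h3 : AA.π (j + 1) • AA.δ • AA.π j • m = AA.δ • AA.π j • m := by
            rw [pd_smul, pp_smul, if_pos rfl]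
          rw [← h3, ← hd, hf, smul_add, e1, e2, if_neg (by omega), if_neg (by omega), add_zero]
        obtain ⟨m', hm'⟩ := hE j _ (by rw [pp_smul, if_pos rfl]) this
        exact ⟨Submodule.Quotient.mk m', by
          rw [← h1, ← Submodule.Quotient.mk_smul, hm', Submodule.Quotient.mk_smul]⟩
    · intro j hj m
      obtain ⟨m, rfl⟩ := Submodule.Quotient.mk_surjective _ m
      rw [← Submodule.Quotient.mk_smul, Submodule.Quotient.mk_eq_zero]
      exact low j (by omega) m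

section
variable {M K : Type} [AddCommGroup M] [Module A M] [AddCommGroup K] [Module A K]

def tau (hX : XK M) (i : ℕ) : Submodule A M :=
  mkSub { carrier := {m | (∀ j, i < j → AA.π j • m = 0) ∧ AA.δ • AA.π i • m = 0}
          add_mem' := fun {a b} ha hb => ⟨fun j hj => by rw [smul_add, ha.1 j hj, hb.1 j hj, add_zero],
            by rw [smul_add, smul_add, ha.2, hb.2, add_zero]⟩
          zero_mem' := ⟨fun _ _ => smul_zero _, by simp⟩
          neg_mem' := fun {a} ha => ⟨fun j hj => by rw [smul_neg, ha.1 j hj, neg_zero],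
            by rw [smul_neg, smul_neg, ha.2, neg_zero]⟩ }
    (fun b m hm => ⟨fun j hj => by rw [pb_smul, hm.1 j hj, smul_zero],
      by rw [pb_smul, db_smul, hm.2, smul_zero]⟩)
    (fun k m hm => ⟨fun j hj => by
        rw [pp_smul]; split_ifs with h
        · rw [← h, hm.1 j hj]
        · rfl,
      by
        rw [pp_smul]; split_ifs with h
        · rw [← h, hm.2]
        · exact smul_zero _⟩)
    (fun m hm => ⟨fun j hj => by
        obtain ⟨j, rfl⟩ : ∃ j', j = j' + 1 := ⟨j - 1, by omega⟩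
        rw [pd_smul]
        by_cases h : j = i
        · rw [h, hm.2]
        · rw [hm.1 j (by omega), smul_zero],
      by rw [← pd_smul, dd_smul, smul_zero]⟩)
    (fun ξ m _ => by rw [hX]; exact zero_mem _)

theorem mem_tau {hX : XK M} {i : ℕ} {m : M} :
    m ∈ tau hX i ↔ (∀ j, i < j → AA.π j • m = 0) ∧ AA.δ • AA.π i • m = 0 := Iff.rfl

theorem low_tau (hX : XK M) {i j : ℕ} (hj : j < i) (m : M) : AA.π j • m ∈ tau hX i :=
  ⟨fun k hk => by rw [pp_smul, if_neg (by omega)], by rw [pp_smul, if_neg (by omega), smul_zero]⟩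

theorem tau_quot [Finite M] (hX : XK M) (i : ℕ) (hE : ∀ j, i < j → Ex M j) :
    PD A (M ⧸ tau hX i) 3 := by
  have := fin_quot (tau hX i)
  refine exact_pd _ (hX.quot _) ?_
  intro j m h1 h2
  obtain ⟨m, rfl⟩ := Submodule.Quotient.mk_surjective _ m
  by_cases hj : j < i
  · refine ⟨0, ?_⟩
    rw [← h1, ← Submodule.Quotient.mk_smul, smul_zero, Submodule.Quotient.mk_eq_zero]
    exact low_tau hX hj m
  rw [← Submodule.Quotient.mk_smul, Submodule.Quotient.mk_eq_zero] at h2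
  have h3 : AA.δ • AA.π j • m = 0 := by rw [← pd_smul]; exact h2.1 _ (by omega)
  by_cases hj' : j = i
  · subst hj'
    refine ⟨0, ?_⟩
    rw [← h1, ← Submodule.Quotient.mk_smul, smul_zero, Submodule.Quotient.mk_eq_zero]
    exact ⟨fun k hk => by rw [pp_smul, if_neg (by omega)], by rw [pp_smul, if_pos rfl, h3]⟩
  · obtain ⟨m', hm'⟩ := hE j (by omega) _ (by rw [pp_smul, if_pos rfl]) h3
    exact ⟨Submodule.Quotient.mk m', by
      rw [← h1, ← Submodule.Quotient.mk_smul, hm', Submodule.Quotient.mk_smul]⟩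

def Coh (M : Type) [AddCommGroup M] [Module A M] (i : ℕ) (N : Type) [AddCommGroup N]
    [Module B N] : Prop :=
  ∃ κ : (m : M) → AA.π i • m = m → AA.δ • m = 0 → N,
    (∀ m m' h1 h2 h3 h4 h5 h6, κ (m + m') h1 h2 = κ m h3 h4 + κ m' h5 h6) ∧
    (∀ (b : B) m h1 h2 h3 h4, κ (AA.β b • m) h1 h2 = b • κ m h3 h4) ∧
    (∀ n, ∃ m h1 h2, κ m h1 h2 = n) ∧
    ∀ m h1 h2, κ m h1 h2 = 0 ↔ ∃ m', m = AA.δ • m'

theorem bd_transfer (f : K →ₗ[A] M) (hf : Function.Injective f) {i : ℕ}
    (h : ∀ j < i, ∀ m : M, AA.π j • m ∈ LinearMap.range f) {j : ℕ} (hj : j ≤ i) (k : K)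
    (hk : AA.π j • k = k) (m' : M) (hm : f k = AA.δ • m') : ∃ k', k = AA.δ • k' := by
  have e : f k = AA.π j • AA.δ • m' := by rw [← hm, ← map_smul, hk]
  rcases j with _ | j
  · refine ⟨0, hf ?_⟩
    rw [e, p0_smul, smul_zero, map_zero]
  · obtain ⟨k', hk'⟩ := h j (by omega) m'
    exact ⟨k', hf (by rw [e, pd_smul, map_smul, hk'])⟩

theorem ex_transfer (f : K →ₗ[A] M) (hf : Function.Injective f) {i : ℕ}
    (h : ∀ j < i, ∀ m : M, AA.π j • m ∈ LinearMap.range f) {j : ℕ} (hj : j ≤ i) (hE : Ex M j) :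
    Ex K j := by
  intro k h1 h2
  obtain ⟨m', hm⟩ := hE (f k) (by rw [← map_smul, h1]) (by rw [← map_smul, h2, map_zero])
  exact bd_transfer f hf h hj k h1 m' hm

theorem coh_transfer (f : K →ₗ[A] M) (hf : Function.Injective f) {i : ℕ}
    (h : ∀ j < i, ∀ m : M, AA.π j • m ∈ LinearMap.range f) {j : ℕ} (hj : j < i)
    {N : Type} [AddCommGroup N] [Module B N] (hE : Coh M j N) : Coh K j N := by
  obtain ⟨κ, a1, a2, a3, a4⟩ := hE
  refine ⟨fun k h1 h2 => κ (f k) (by rw [← map_smul, h1]) (by rw [← map_smul, h2, map_zero]),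
    ?_, ?_, ?_, ?_⟩
  · intro m m' h1 h2 h3 h4 h5 h6
    simp only [map_add]
    exact a1 _ _ _ _ _ _ _ _
  · intro b m h1 h2 h3 h4
    simp only [map_smul]
    exact a2 _ _ _ _ _ _
  · intro n
    obtain ⟨m, h1, h2, h3⟩ := a3 n
    obtain ⟨k, hk⟩ := h j hj m
    rw [h1] at hk
    subst hk
    exact ⟨k, hf (by rw [map_smul, h1]), hf (by rw [map_smul, h2, map_zero]), h3⟩
  · intro k h1 h2
    rw [a4]
    exact ⟨fun ⟨m', hm⟩ => bd_transfer f hf h hj.le k h1 m' hm,
      fun ⟨k', hk⟩ => ⟨f k', by rw [hk, map_smul]⟩⟩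

theorem peel [Finite M] (hX : XK M) {i : ℕ} (hi : i ≤ LLn) {N : Type} [AddCommGroup N] [Module B N]
    (hC : Coh M i N) :
    ∃ (K : Type) (_ : AddCommGroup K) (_ : Module A K) (_ : Finite K),
      SES A K (tau hX i) (JT i N) ∧ XK K ∧ (∀ j, i ≤ j → Ex K j) ∧ (∀ j < i, Ex M j → Ex K j) ∧
      ∀ j < i, ∀ (N' : Type) [AddCommGroup N'] [Module B N'], Coh M j N' → Coh K j N' := by
  obtain ⟨κ, a1, a2, a3, a4⟩ := hC
  have cg : ∀ m m' h1 h2 h3 h4, m = m' → κ m h1 h2 = κ m' h3 h4 := by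
    rintro m _ h1 h2 h3 h4 rfl; rfl
  have z : ∀ m h1 h2, m = 0 → κ m h1 h2 = 0 := fun m h1 h2 h =>
    (a4 m h1 h2).2 ⟨0, by rw [h, smul_zero]⟩
  have c1 : ∀ m : M, AA.π i • AA.π i • m = AA.π i • m := fun m => by rw [pp_smul, if_pos rfl]
  let g : tau hX i →ₗ[A] JT i N := mkLin
    (AddMonoidHom.mk' (fun m => JT.mk i (κ (AA.π i • m.1) (c1 _) m.2.2)) (fun a b => by
      apply JT.ext
      simp only [JT.mk_val, JT.add_val, Submodule.coe_add, smul_add]
      exact a1 _ _ _ _ _ _ _ _))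
    (fun b m => by
      rw [J_β]
      apply JT.ext
      simp only [JT.mk_val, AddMonoidHom.mk'_apply, Submodule.coe_smul, pb_smul]
      exact a2 _ _ _ _ _ _)
    (fun j m => by
      rw [J_π hi]
      split_ifs with h
      · subst h
        exact cg _ _ _ _ _ _ (c1 _)
      · exact z _ _ _ (by rw [Submodule.coe_smul, pp_smul, if_neg (Ne.symm h)]))
    (fun m => by
      rw [J_δ]
      exact (a4 _ _ _).2 (by
        rcases i with _ | i
        · exact ⟨0, by rw [Submodule.coe_smul, p0_smul, smul_zero]⟩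
        · exact ⟨_, by rw [Submodule.coe_smul, pd_smul]⟩))
    (fun ξ m => by
      rw [J_x]
      exact z _ _ _ (by rw [Submodule.coe_smul, hX, smul_zero]))
  have hg : ∀ m : tau hX i, g m = 0 ↔ ∃ m', AA.π i • m.1 = AA.δ • m' := fun m => a4 _ _ _
  have gs : Function.Surjective g := by
    intro n
    obtain ⟨m, h1, h2, h3⟩ := a3 n.val
    refine ⟨⟨m, fun j hj => by rw [← h1, pp_smul, if_neg (by omega)], by rw [h1, h2]⟩, ?_⟩
    exact (cg _ _ _ _ _ _ h1).trans h3
  let f : LinearMap.ker g →ₗ[A] M := (tau hX i).subtype ∘ₗ (LinearMap.ker g).subtype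
  have hf : Function.Injective f := (tau hX i).injective_subtype.comp (Submodule.injective_subtype _)
  have low : ∀ j < i, ∀ m : M, AA.π j • m ∈ LinearMap.range f := fun j hj m =>
    ⟨⟨⟨_, low_tau hX hj m⟩, (hg _).2 ⟨0, by
      show AA.π i • AA.π j • m = _
      rw [pp_smul, if_neg (by omega), smul_zero]⟩⟩, rfl⟩
  refine ⟨LinearMap.ker g, inferInstance, inferInstance, inferInstance, ses_ker g gs,
    (hX.sub _).sub _, ?_, fun j hj => ex_transfer f hf low hj.le,
    fun j hj N' _ _ => coh_transfer f hf low hj⟩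
  intro j hj k h1 h2
  by_cases hj' : j = i
  · subst hj'
    obtain ⟨m', hm⟩ := (hg k.1).1 k.2
    refine bd_transfer f hf low le_rfl k h1 m' ?_
    rw [← hm]
    exact (congrArg f h1).symm
  · refine ⟨0, hf ?_⟩
    rw [← h1, map_smul, smul_zero, map_zero]
    exact k.1.2.1 j (by omega)

end

theorem kick (n : ℕ) : ∀ (M : Type) [AddCommGroup M] [Module A M] [Finite M] (j : ℕ),
    PD A M (n + 1) → 2 * DD.n < j → j + n < LLn → Ex M j := by
  have cover : ∀ (M : Type) [AddCommGroup M] [Module A M] [Finite M],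
      ∃ g : (M → A) →ₗ[A] M, Function.Surjective g := by
    intro M _ _ _
    classical
    have := Fintype.ofFinite M
    exact ⟨Fintype.linearCombination A id, fun m => ⟨Pi.single m 1, by simp⟩⟩
  have pex : ∀ (M : Type) (j : ℕ), 2 * DD.n < j → j < LLn → Ex (M → A) j := by
    intro M j h1 h2 a ha hd
    choose b hb using fun m => A_ex h1 h2 (a m) (congrFun ha m) (congrFun hd m)
    exact ⟨b, funext hb⟩
  induction n with
  | zero =>
    intro M _ _ _ j h h1 h2 m hm hd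
    have := h.proj
    obtain ⟨g, hg⟩ := cover M
    obtain ⟨s, hs⟩ := Module.projective_lifting_property g LinearMap.id hg
    obtain ⟨b, hb⟩ := pex M j h1 h2 (s m) (by rw [← map_smul, hm]) (by rw [← map_smul, hd, map_zero])
    exact ⟨g b, by rw [← map_smul, ← hb]; exact (LinearMap.congr_fun hs m).symm⟩
  | succ n ih =>
    intro M _ _ _ j h h1 h2 m hm hd
    obtain ⟨g, hg⟩ := cover M
    have hK := ih (LinearMap.ker g) (j + 1)
      ((ses_ker g hg).x1 (PD.of_proj.mono (by omega)) h) (by omega) (by omega)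
    obtain ⟨p, rfl⟩ := hg m
    obtain ⟨k, hk⟩ := hK ⟨AA.δ • AA.π j • p, by
        rw [LinearMap.mem_ker, map_smul, map_smul, hm, hd]⟩
      (Subtype.ext (by show AA.π (j + 1) • _ = _; rw [pd_smul, pp_smul, if_pos rfl]))
      (Subtype.ext (dd_smul _))
    have hk' : AA.δ • AA.π j • p = AA.δ • k.1 := congrArg Subtype.val hk
    obtain ⟨p', hp'⟩ := pex M j h1 (by omega) (AA.π j • (p - k.1)) (by rw [pp_smul, if_pos rfl]) (by
      rw [smul_sub, smul_sub, ← pd_smul j k.1, ← hk', pd_smul, pp_smul, if_pos rfl, sub_self])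
    refine ⟨g p', ?_⟩
    rw [← map_smul, ← hp', map_smul, map_sub, k.2, sub_zero, hm]

section
variable {N : Type} [AddCommGroup N] [Module B N] [Finite N]

theorem J_up {i j m : ℕ} (hm : 3 ≤ m) (hij : i ≤ j) (hj : j ≤ LLn) (h : PD A (JT i N) m) :
    PD A (JT j N) m := by
  induction j, hij using Nat.le_induction with
  | base => exact h
  | succ j _ ih =>
    exact (JD_ses (show j < LLn from hj)).x1 ((D_pd hj N).mono hm) ((ih (by omega)).mono (by omega))

theorem J_fin {i : ℕ} (hi : i ≤ LLn) (h : ∃ m, PD A (JT LLn N) m) : ∃ m, PD A (JT i N) m := by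
  induction hi using Nat.decreasingInduction with
  | self => exact h
  | of_succ k hk ih =>
    obtain ⟨m, hm⟩ := ih
    exact ⟨m + 2 + 1, (JD_ses hk).x3 (hm.mono (by omega)) ((D_pd hk N).mono (by omega))⟩

omit [Finite N] in
theorem Z_XK : XK (LinearMap.ker (Gsnd N)) := by
  rintro ξ ⟨m, hm⟩
  apply Subtype.ext
  show AA.x ξ • m = 0
  have : m.2 = 0 := hm
  rw [G_x, this]
  exact GT.ext (by ext; simp) rfl

omit [Finite N] in
theorem Z_ex {i : ℕ} (h : ∀ φ : YY →ₗ[B] N, φ ∘ₗ DD.p i = φ → φ ∘ₗ DD.d = 0 →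
    ∃ ψ : YY →ₗ[B] N, φ = ψ ∘ₗ DD.d) : Ex (LinearMap.ker (Gsnd N)) i := by
  rintro ⟨m, hm⟩ h1 h2
  have h1' : AA.π i • m = m := congrArg Subtype.val h1
  have h2' : AA.δ • m = 0 := congrArg Subtype.val h2
  rw [G_π] at h1'
  rw [G_δ] at h2'
  obtain ⟨ψ, hψ⟩ := h m.1 (congrArg Prod.fst h1') (congrArg Prod.fst h2')
  refine ⟨⟨GT.mk ψ 0, rfl⟩, Subtype.ext ?_⟩
  show m = AA.δ • GT.mk ψ 0
  rw [G_δ]
  exact GT.ext hψ hm

end

theorem Z_coh {ρ : Rep} (hZ : ρ.Z1) {i : ℕ} (hi : i = DD.n ∨ i = DD.n + 1) :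
    Coh (LinearMap.ker (Gsnd (Md ρ))) i (Md ρ.al) := by
  obtain ⟨κ, a1, a2, a3, a4⟩ := ((DD.coh ρ).2 hZ).2 i hi
  have cg : ∀ m m' h1 h2 h3 h4, m = m' → κ m h1 h2 = κ m' h3 h4 := by
    rintro m _ h1 h2 h3 h4 rfl; rfl
  have e1 : ∀ m : LinearMap.ker (Gsnd (Md ρ)), (AA.π i • m).1.1 = m.1.1 ∘ₗ DD.p i := fun m => by
    rw [Submodule.coe_smul, G_π]; rfl
  have e2 : ∀ m : LinearMap.ker (Gsnd (Md ρ)), (AA.δ • m).1.1 = m.1.1 ∘ₗ DD.d := fun m => by
    rw [Submodule.coe_smul, G_δ]; rfl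
  have e3 : ∀ b (m : LinearMap.ker (Gsnd (Md ρ))), (AA.β b • m).1.1 = m.1.1 ∘ₗ DD.r b :=
    fun b m => by rw [Submodule.coe_smul, G_β]; rfl
  have ext : ∀ m m' : LinearMap.ker (Gsnd (Md ρ)), m.1.1 = m'.1.1 → m = m' := fun m m' h =>
    Subtype.ext (GT.ext h (Eq.trans m.2 (Eq.symm m'.2)))
  refine ⟨fun m h1 h2 => κ m.1.1 (by rw [← e1, h1]) (by rw [← e2, h2]; rfl), ?_, ?_, ?_, ?_⟩
  · intro m m' h1 h2 h3 h4 h5 h6
    exact a1 _ _ _ _ _ _ _ _
  · intro b m h1 h2 h3 h4
    exact (cg _ _ _ _ (by rw [← e3, ← e1, h1]) (by rw [← e3, ← e2, h2]; rfl) (e3 b m)).trans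
      (a2 _ _ _ _ _ _)
  · intro n
    obtain ⟨φ, h1, h2, h3⟩ := a3 n
    exact ⟨⟨GT.mk φ 0, rfl⟩, ext _ _ ((e1 _).trans h1), ext _ _ ((e2 _).trans h2), h3⟩
  · intro m h1 h2
    rw [a4]
    exact ⟨fun ⟨ψ, h⟩ => ⟨⟨GT.mk ψ 0, rfl⟩, ext _ _ (h.trans (e2 ⟨GT.mk ψ 0, rfl⟩).symm)⟩,
      fun ⟨m', h⟩ => ⟨m'.1.1, by rw [h, e2]⟩⟩

theorem step {ρ : Rep} (hZ : ρ.Z1) (hfin : ∃ m, PD A (JT LLn (Md ρ.al)) m) :
    (∃ m, PD A (JT LLn (Md ρ)) m) ∧
      ∀ k, 4 ≤ k → PD A (JT LLn (Md ρ)) (k + 1) → PD A (JT (DD.n + 1) (Md ρ.al)) k := by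
  have hL : DD.n + 1 < LLn := by unfold LLn; omega
  have s0 := ses_ker (Gsnd (Md ρ)) Gsnd_surj
  have hX : XK (LinearMap.ker (Gsnd (Md ρ))) := Z_XK
  have ex : ∀ j, j ≠ DD.n → j ≠ DD.n + 1 → Ex (LinearMap.ker (Gsnd (Md ρ))) j := fun j h1 h2 =>
    Z_ex (((DD.coh ρ).2 hZ).1 j h1 h2)
  have s1 := ses_quot (tau hX (DD.n + 1))
  have q1 := tau_quot hX (DD.n + 1) fun j hj => ex j (by omega) (by omega)
  obtain ⟨K, _, _, _, s2, hK, b1, b2, b3⟩ := peel hX hL.le (Z_coh hZ (Or.inr rfl))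
  have s3 := ses_quot (tau hK DD.n)
  have q3 := tau_quot hK DD.n fun j hj => b1 j (by omega)
  obtain ⟨K', _, _, _, s4, hK', c1, c2, -⟩ := peel hK (show DD.n ≤ LLn by omega)
    (b3 _ (by omega) _ (Z_coh hZ (Or.inl rfl)))
  have q4 : PD A K' 3 := exact_pd _ hK' fun j => by
    by_cases hj : DD.n ≤ j
    · exact c1 j hj
    · exact c2 j (by omega) (b2 j (by omega) (ex j (by omega) (by omega)))
  obtain ⟨m1, h1⟩ := J_fin hL.le hfin
  constructor
  · obtain ⟨m0, h0⟩ := J_fin (show DD.n ≤ LLn by omega) hfin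
    have t1 := s4.x2 (n := m0 + m1 + 3) (q4.mono (by omega)) (h0.mono (by omega))
    have t2 := s3.x2 t1 (q3.mono (by omega))
    have t3 := s2.x2 t2 (h1.mono (by omega))
    have t4 := s1.x2 t3 (q1.mono (by omega))
    exact ⟨_, s0.x3 t4 ((G_pd _).mono (by omega))⟩
  · intro k hk h
    have t1 := s0.x1 ((G_pd _).mono (by omega)) h
    have t2 := s1.x1 t1 (q1.mono (by omega))
    have key : ∀ s, k ≤ s → PD A (JT (DD.n + 1) (Md ρ.al)) (s + 1) →
        PD A (JT (DD.n + 1) (Md ρ.al)) s := by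
      intro s hs h
      obtain ⟨s, rfl⟩ : ∃ s', s = s' + 1 := ⟨s - 1, by omega⟩
      have u1 := s2.x1 (t2.mono hs) h
      have u2 := s3.x1 u1 (q3.mono (by omega))
      have u3 := s4.x3 (q4.mono (by omega)) u2
      exact J_up (by omega) (Nat.le_succ _) hL.le u3
    have : ∀ t, PD A (JT (DD.n + 1) (Md ρ.al)) (k + t) → PD A (JT (DD.n + 1) (Md ρ.al)) k := by
      intro t
      induction t with
      | zero => exact id
      | succ t ih => exact fun h => ih (key _ (by omega) h)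
    exact this m1 (h1.mono (by omega))

theorem main (k : ℕ) : ∀ ρ : Rep, Nontrivial ρ.U → (∀ i < k, (Rep.al^[i] ρ).Z1) →
    (Rep.al^[k] ρ).E0 → (∃ m, PD A (JT LLn (Md ρ)) m) ∧ (1 ≤ k → ¬ PD A (JT LLn (Md ρ)) (k + 4)) := by
  induction k with
  | zero =>
    intro ρ _ _ hE
    refine ⟨⟨4, (ses_ker (Gsnd (Md ρ)) Gsnd_surj).x3 ?_ ((G_pd _).mono (by omega))⟩, by omega⟩
    exact exact_pd _ Z_XK fun j => Z_ex ((DD.coh ρ).1 hE j)
  | succ k ih =>
    intro ρ hU hZ hE
    obtain ⟨h1, h2⟩ := ih ρ.al hU (fun i hi => hZ (i + 1) (by omega)) hE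
    obtain ⟨h3, h4⟩ := step (hZ 0 (by omega)) h1
    refine ⟨h3, fun _ h => ?_⟩
    have h5 := h4 (k + 4) (by omega) h
    rcases k with _ | k
    · have h6 := J_up (j := 2 * DD.n + 1) (by omega) (by omega) (by unfold LLn; omega) h5
      have h7 := kick 3 _ (2 * DD.n + 1) h6 (by omega) (by unfold LLn; omega)
      obtain ⟨u, hu⟩ := exists_ne (0 : ρ.U)
      obtain ⟨m', hm⟩ := h7 (JT.mk _ (fun _ => u)) (by
        rw [J_π (by unfold LLn; omega), if_pos rfl]) (J_δ _ _)
      rw [J_δ] at hm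
      exact hu (congrFun hm 0)
    · exact h2 (by omega) (J_up (by omega) (by unfold LLn; omega) le_rfl h5)

theorem final (n : ℕ) : ∃ (M : Type) (_ : AddCommGroup M) (_ : Module A M), Finite M ∧
    (∃ m, PD A M m) ∧ ¬ PD A M n := by
  obtain ⟨ρ, h1, h2, h3⟩ := exists_rep (n + 1)
  obtain ⟨h4, h5⟩ := main (n + 1) ρ h1 h2 h3
  exact ⟨JT LLn (Md ρ), inferInstance, inferInstance, inferInstance, h4,
    fun h => h5 (by omega) (h.mono (by omega))⟩

end Vale.Agent.P176
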