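import Mathlib

set_option linter.constructorNameAsVariable false

namespace Vale.Agent.P176

inductive S
  | h | x | y | w | u | t | sg | c | q | v | z | m1 | m2 | m3 | yb
  deriving DecidableEq

instance : Fintype S :=
  ⟨{.h, .x, .y, .w, .u, .t, .sg, .c, .q, .v, .z, .m1, .m2, .m3, .yb}, fun a => by cases a <;> simp⟩

open S in
def relList : List (S × S × S × S) :=
  [(u,t,t,u),(u,sg,sg,u),(t,sg,sg,t),(x,t,t,x),(w,u,u,w),(w,sg,sg,w),(u,t,c,h),(y,c,c,y),
   (x,w,w,x),(y,x,m1,h),(x,y,m1,q),(q,x,x,q),(q,y,y,q),(q,u,u,q),(q,sg,sg,q),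
   (w,y,m2,h),(y,w,m2,v),(v,y,y,v),(v,w,w,v),(v,t,t,v),(q,v,v,q),(w,q,m3,h),(q,w,m3,z),
   (y,y,yb,h),(y,yb,h,h),(y,sg,sg,yb)]

def Rel (r : S × S × S × S) : Prop :=
  r ∈ relList ∨ ∃ g, r = (S.h, g, g, S.h)

structure Good {G : Type*} [Group G] (f : S → G) : Prop where
  h1 : f S.h = 1
  rel : ∀ a b c d, Rel (a, b, c, d) → f a * f b = f c * f d

section
variable {G : Type*} [Group G]

def al (f : S → G) : S → G
  | .h => f .h
  | .x => f .x
  | .w => f .w
  | .u => f .u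
  | .t => f .t
  | .sg => f .sg
  | .c => f .c
  | .y => f .t * f .y * (f .t)⁻¹
  | .yb => f .t * f .yb * (f .t)⁻¹
  | .q => f .t * f .q * (f .t)⁻¹
  | .m1 => f .t * f .m1 * (f .t)⁻¹
  | .v => (f .u)⁻¹ * f .v * f .u
  | .m2 => (f .u)⁻¹ * f .m2 * f .u
  | .m3 => f .w * (f .t * f .q * (f .t)⁻¹)
  | .z => (f .w * (f .t * f .q * (f .t)⁻¹))⁻¹ * ((f .t * f .q * (f .t)⁻¹) * f .w)

structure Good' (f : S → G) : Prop where
  h1 : f .h = 1
  ut : Commute (f .u) (f .t)
  us : Commute (f .u) (f .sg)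
  ts : Commute (f .t) (f .sg)
  xt : Commute (f .x) (f .t)
  wu : Commute (f .w) (f .u)
  ws : Commute (f .w) (f .sg)
  c : f .u * f .t = f .c
  yc : Commute (f .y) (f .c)
  xw : Commute (f .x) (f .w)
  m1 : f .y * f .x = f .m1
  q : f .x * f .y = f .m1 * f .q
  qx : Commute (f .q) (f .x)
  qy : Commute (f .q) (f .y)
  qu : Commute (f .q) (f .u)
  qs : Commute (f .q) (f .sg)
  m2 : f .w * f .y = f .m2
  v : f .y * f .w = f .m2 * f .v
  vy : Commute (f .v) (f .y)
  vw : Commute (f .v) (f .w)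
  vt : Commute (f .v) (f .t)
  qv : Commute (f .q) (f .v)
  m3 : f .w * f .q = f .m3
  z : f .q * f .w = f .m3 * f .z
  yb : f .y * f .y = f .yb
  yyb : f .y * f .yb = 1
  ys : f .y * f .sg = f .sg * f .yb

theorem Good.good' {f : S → G} (hf : Good f) : Good' f := by
  have h1 := hf.h1
  have H : ∀ a b c d, (a, b, c, d) ∈ relList → f a * f b = f c * f d :=
    fun a b c d h => hf.rel a b c d (Or.inl h)
  have H1 : ∀ a b c, (a, b, c, S.h) ∈ relList → f a * f b = f c := fun a b c h => by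
    rw [H a b c _ h, h1, mul_one]
  refine ⟨h1, H _ _ _ _ (by decide), H _ _ _ _ (by decide), H _ _ _ _ (by decide),
    H _ _ _ _ (by decide), H _ _ _ _ (by decide), H _ _ _ _ (by decide), H1 _ _ _ (by decide),
    H _ _ _ _ (by decide), H _ _ _ _ (by decide), H1 _ _ _ (by decide), H _ _ _ _ (by decide),
    H _ _ _ _ (by decide), H _ _ _ _ (by decide), H _ _ _ _ (by decide), H _ _ _ _ (by decide),
    H1 _ _ _ (by decide), H _ _ _ _ (by decide), H _ _ _ _ (by decide), H _ _ _ _ (by decide),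
    H _ _ _ _ (by decide), H _ _ _ _ (by decide), H1 _ _ _ (by decide), H _ _ _ _ (by decide),
    H1 _ _ _ (by decide), ?_, H _ _ _ _ (by decide)⟩
  rw [H1 _ _ S.h (by decide), h1]

theorem Good'.good {f : S → G} (hf : Good' f) : Good f := by
  refine ⟨hf.h1, ?_⟩
  rintro a b c d (h | ⟨g, h⟩)
  · simp only [relList, List.mem_cons, Prod.mk.injEq, List.not_mem_nil, or_false] at h
    have h1 := hf.h1
    rcases h with h | h | h | h | h | h | h | h | h | h | h | h | h | h | h | h | h | h | h | h |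
      h | h | h | h | h | h <;> obtain ⟨rfl, rfl, rfl, rfl⟩ := h
    · exact hf.ut
    · exact hf.us
    · exact hf.ts
    · exact hf.xt
    · exact hf.wu
    · exact hf.ws
    · rw [h1, mul_one]; exact hf.c
    · exact hf.yc
    · exact hf.xw
    · rw [h1, mul_one]; exact hf.m1
    · exact hf.q
    · exact hf.qx
    · exact hf.qy
    · exact hf.qu
    · exact hf.qs
    · rw [h1, mul_one]; exact hf.m2
    · exact hf.v
    · exact hf.vy
    · exact hf.vw
    · exact hf.vt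
    · exact hf.qv
    · rw [h1, mul_one]; exact hf.m3
    · exact hf.z
    · rw [h1, mul_one]; exact hf.yb
    · rw [h1, mul_one]; exact hf.yyb
    · exact hf.ys
  · simp only [Prod.mk.injEq] at h
    obtain ⟨rfl, rfl, rfl, rfl⟩ := h
    rw [hf.h1, mul_one, one_mul]

theorem conj_fix {a b : G} (h : Commute a b) : b * a * b⁻¹ = a := by
  rw [← h.eq]; group

theorem conj_fix' {a b : G} (h : Commute a b) : b⁻¹ * a * b = a := by
  rw [mul_assoc, h.eq]; group

theorem conj_comm (g : G) {a b : G} (h : Commute a b) : Commute (g * a * g⁻¹) (g * b * g⁻¹) := by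
  have : g * a * g⁻¹ * (g * b * g⁻¹) = g * (a * b) * g⁻¹ := by group
  have h2 : g * b * g⁻¹ * (g * a * g⁻¹) = g * (b * a) * g⁻¹ := by group
  unfold Commute SemiconjBy
  rw [this, h2, h.eq]

theorem Good'.al {f : S → G} (hf : Good' f) : Good' (al f) := by
  have hct : Commute (f .c) (f .t) := by
    rw [← hf.c]; exact hf.ut.mul_left (Commute.refl _)
  have hy : f .t * f .y * (f .t)⁻¹ = (f .u)⁻¹ * f .y * (f .u)⁻¹⁻¹ := by
    have h1 : f .t = (f .u)⁻¹ * f .c := by rw [← hf.c]; group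
    have h2 := conj_fix hf.yc
    calc f .t * f .y * (f .t)⁻¹ = (f .u)⁻¹ * (f .c * f .y * (f .c)⁻¹) * (f .u)⁻¹⁻¹ := by
          rw [h1]; group
      _ = _ := by rw [h2]
  have ex := conj_fix hf.xt
  have eu := conj_fix hf.ut
  have es := conj_fix hf.ts.symm
  have ec := conj_fix hct
  have ew : (f .u)⁻¹ * f .w * (f .u)⁻¹⁻¹ = f .w := conj_fix hf.wu.inv_right
  have et : (f .u)⁻¹ * f .t * (f .u)⁻¹⁻¹ = f .t := conj_fix hf.ut.symm.inv_right
  have ev : (f .u)⁻¹ * f .v * f .u = (f .u)⁻¹ * f .v * (f .u)⁻¹⁻¹ := by rw [inv_inv]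
  refine ⟨hf.h1, hf.ut, hf.us, hf.ts, hf.xt, hf.wu, hf.ws, hf.c, ?_, hf.xw, ?_, ?_, ?_, ?_, ?_, ?_,
    ?_, ?_, ?_, ?_, ?_, ?_, rfl, ?_, ?_, ?_, ?_⟩ <;> simp only [P176.al]
  · have := conj_comm (f .t) hf.yc; rwa [ec] at this
  · rw [← hf.m1]; nth_rewrite 1 [← ex]; group
  · nth_rewrite 1 [← ex]
    calc _ = f .t * (f .x * f .y) * (f .t)⁻¹ := by group
      _ = _ := by rw [hf.q]; group
  · have := conj_comm (f .t) hf.qx; rwa [ex] at this
  · exact conj_comm (f .t) hf.qy
  · have := conj_comm (f .t) hf.qu; rwa [eu] at this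
  · have := conj_comm (f .t) hf.qs; rwa [es] at this
  · rw [hy, ← hf.m2]; nth_rewrite 1 [← ew]; group
  · rw [hy]; nth_rewrite 1 [← ew]
    calc _ = (f .u)⁻¹ * (f .y * f .w) * (f .u) := by group
      _ = _ := by rw [hf.v]; group
  · rw [hy, ev]; exact conj_comm _ hf.vy
  · have := conj_comm (f .u)⁻¹ hf.vw; rwa [ew, ← ev] at this
  · have := conj_comm (f .u)⁻¹ hf.vt; rwa [et, ← ev] at this
  · have h1 := conj_comm ((f .u)⁻¹ * f .t) hf.qv
    have h2 : (f .u)⁻¹ * f .t * f .v * ((f .u)⁻¹ * f .t)⁻¹ = (f .u)⁻¹ * f .v * f .u := by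
      calc _ = (f .u)⁻¹ * (f .t * f .v * (f .t)⁻¹) * f .u := by group
        _ = _ := by rw [conj_fix hf.vt]
    have h3 : (f .u)⁻¹ * f .t * f .q * ((f .u)⁻¹ * f .t)⁻¹ = f .t * f .q * (f .t)⁻¹ := by
      rw [hf.ut.inv_left.eq]
      calc _ = f .t * ((f .u)⁻¹ * f .q * f .u) * (f .t)⁻¹ := by group
        _ = _ := by rw [conj_fix' hf.qu]
    rwa [h2, h3] at h1
  · group
  · rw [← hf.yb]; group
  · calc _ = f .t * (f .y * f .yb) * (f .t)⁻¹ := by group
      _ = _ := by rw [hf.yyb]; group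
  · nth_rewrite 1 [← es]
    calc _ = f .t * (f .y * f .sg) * (f .t)⁻¹ := by group
      _ = (f .t * f .sg * (f .t)⁻¹) * (f .t * f .yb * (f .t)⁻¹) := by rw [hf.ys]; group
      _ = _ := by rw [es]

theorem Good.al {f : S → G} (hf : Good f) : Good (al f) := hf.good'.al.good

theorem Good'.zword {f : S → G} (hf : Good' f) :
    f .z = (f .w * ((f .y * f .x)⁻¹ * (f .x * f .y)))⁻¹ *
      (((f .y * f .x)⁻¹ * (f .x * f .y)) * f .w) := by
  have hq : (f .y * f .x)⁻¹ * (f .x * f .y) = f .q := by rw [hf.m1, hf.q]; group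
  rw [hq, hf.m3, hf.z]; group

theorem Good'.central {f : S → G} (hf : Good' f) :
    (∀ g, Commute (f .z) (f g)) ∧ f .z * f .z * f .z = 1 := by
  have hz : f .z = (f .q)⁻¹ * (f .w)⁻¹ * f .q * f .w := by
    have := hf.z; rw [← hf.m3] at this
    calc f .z = (f .w * f .q)⁻¹ * (f .w * f .q * f .z) := by group
      _ = _ := by rw [← this]; group
  have hv : f .v = (f .y)⁻¹ * (f .w)⁻¹ * f .y * f .w := by
    have := hf.v; rw [← hf.m2] at this
    calc f .v = (f .w * f .y)⁻¹ * (f .w * f .y * f .v) := by group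
      _ = _ := by rw [← this]; group
  have hxy : f .x * f .y * (f .x)⁻¹ = f .y * f .q := by
    rw [hf.q, ← hf.m1, mul_assoc (f .y), ← hf.qx.eq]; group
  have hxv : f .x * f .v * (f .x)⁻¹ = f .v * f .z := by
    calc f .x * f .v * (f .x)⁻¹ = (f .x * f .y * (f .x)⁻¹)⁻¹ * (f .x * f .w * (f .x)⁻¹)⁻¹ *
          (f .x * f .y * (f .x)⁻¹) * (f .x * f .w * (f .x)⁻¹) := by rw [hv]; group
      _ = (f .q)⁻¹ * ((f .y)⁻¹ * (f .w)⁻¹ * f .y * f .w) * ((f .w)⁻¹ * f .q * f .w) := by
          rw [hxy, conj_fix hf.xw.symm]; group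
      _ = _ := by rw [← hv, hf.qv.inv_left.eq, hz]; group
  have hz2 : f .z = (f .v)⁻¹ * f .x * f .v * (f .x)⁻¹ := by
    calc f .z = (f .v)⁻¹ * (f .v * f .z) := by group
      _ = _ := by rw [← hxv]; group
  have c1 : ∀ g, Commute (f .q) g → Commute (f .w) g → Commute (f .z) g := fun g h1 h2 => by
    rw [hz]; exact ((h1.inv_left.mul_left h2.inv_left).mul_left h1).mul_left h2
  have c2 : ∀ g, Commute (f .v) g → Commute (f .x) g → Commute (f .z) g := fun g h1 h2 => by
    rw [hz2]; exact ((h1.inv_left.mul_left h2).mul_left h1).mul_left h2.inv_left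
  have zu := c1 _ hf.qu hf.wu
  have zs := c1 _ hf.qs hf.ws
  have zx := c1 _ hf.qx hf.xw.symm
  have zt := c2 _ hf.vt hf.xt
  have zw := c2 _ hf.vw hf.xw
  have y3 : f .y * f .y * f .y = 1 := by rw [mul_assoc, hf.yb, hf.yyb]
  have zyq : Commute (f .z) (f .y * f .q) := by
    have h1 := conj_comm (f .x) hf.vy
    rw [hxv, hxy] at h1
    have h2 : Commute (f .v) (f .y * f .q) := hf.vy.mul_right hf.qv.symm
    have := h2.inv_left.mul_left h1
    rwa [inv_mul_cancel_left] at this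
  have zyq2 : Commute (f .z) (f .yb * f .q) := by
    have h1 := conj_comm (f .sg)⁻¹ zyq
    rw [conj_fix zs.inv_right] at h1
    have : (f .sg)⁻¹ * (f .y * f .q) * (f .sg)⁻¹⁻¹ = f .yb * f .q := by
      rw [inv_inv, mul_assoc, mul_assoc, hf.qs.eq, ← mul_assoc (f .y), hf.ys]; group
    rwa [this] at h1
  have zy : Commute (f .z) (f .y) := by
    have := zyq2.mul_right zyq.inv_right
    have e : f .yb * f .q * (f .y * f .q)⁻¹ = f .y := by rw [← hf.yb]; group
    rwa [e] at this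
  have zq : Commute (f .z) (f .q) := by
    have := zy.inv_right.mul_right zyq
    rwa [inv_mul_cancel_left] at this
  have zv : Commute (f .z) (f .v) := by
    rw [hv]; exact ((zy.inv_right.mul_right zw.inv_right).mul_right zy).mul_right zw
  constructor
  · intro g
    cases g
    · rw [hf.h1]; exact Commute.one_right _
    · exact zx
    · exact zy
    · exact zw
    · exact zu
    · exact zt
    · exact zs
    · rw [← hf.c]; exact zu.mul_right zt
    · exact zq
    · exact zv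
    · exact Commute.refl _
    · rw [← hf.m1]; exact zy.mul_right zx
    · rw [← hf.m2]; exact zw.mul_right zy
    · rw [← hf.m3]; exact zw.mul_right zq
    · rw [← hf.yb]; exact zy.mul_right zy
  · have y3' : f .y ^ 3 = 1 := by rw [pow_three, ← mul_assoc, y3]
    have q3 : f .q ^ 3 = 1 := by
      have h1 : (f .x * f .y * (f .x)⁻¹) ^ 3 = 1 := by rw [conj_pow, y3']; group
      rwa [hxy, hf.qy.symm.mul_pow, y3', one_mul] at h1
    have h2 : (f .w)⁻¹ * f .q * (f .w)⁻¹⁻¹ = f .q * f .z := by rw [hz]; group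
    have h1 : ((f .w)⁻¹ * f .q * (f .w)⁻¹⁻¹) ^ 3 = 1 := by rw [conj_pow, q3]; group
    rw [h2, zq.symm.mul_pow, q3, one_mul] at h1
    rw [← h1, pow_three, mul_assoc]

theorem al_rel {G' : Type*} [Group G'] (R : G → G' → Prop)
    (hm : ∀ a b a' b', R a a' → R b b' → R (a * b) (a' * b'))
    (hi : ∀ a a', R a a' → R a⁻¹ a'⁻¹) {f : S → G} {f' : S → G'} (h : ∀ g, R (f g) (f' g)) (g : S) :
    R (al f g) (al f' g) := by
  cases g <;> simp only [al] <;> repeat (first | exact h _ | apply hm | apply hi)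

theorem al_map {G' : Type*} [Group G'] (φ : G →* G') (f : S → G) :
    al (fun g => φ (f g)) = fun g => φ (al f g) := by
  funext g
  exact (al_rel (fun a b => φ a = b) (fun a b a' b' h1 h2 => by rw [map_mul, h1, h2])
    (fun a a' h => by rw [map_inv, h]) (fun g => rfl) g).symm

theorem Good.map {G' : Type*} [Group G'] (φ : G →* G') {f : S → G} (hf : Good f) :
    Good (fun g => φ (f g)) :=
  ⟨by simp [hf.h1], fun a b c d h => by rw [← map_mul, ← map_mul, hf.rel a b c d h]⟩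

theorem Good.al_comm {f : S → G} (hf : Good f) (g : S) : Commute (f .z) (P176.al f g) :=
  al_rel (fun (_ : G) b => Commute (f .z) b) (fun _ _ _ _ h1 h2 => h1.mul_right h2)
    (fun _ _ h => h.inv_right) (f := f) hf.good'.central.1 g

end

end Vale.Agent.P176
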