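import Vale.Agent.P176.AAlg

set_option linter.constructorNameAsVariable false

namespace Vale.Agent.P176

variable (N : Type) [AddCommGroup N] [Module B N]

/-- the module N in position i -/
def JT (_ : ℕ) (N : Type) : Type := N
def DT (_ : ℕ) (N : Type) : Type := N × N
def GT (N : Type) [AddCommGroup N] [Module B N] : Type := (YY →ₗ[B] N) × N

instance (i : ℕ) : AddCommGroup (JT i N) := inferInstanceAs (AddCommGroup N)
instance (i : ℕ) : AddCommGroup (DT i N) := inferInstanceAs (AddCommGroup (N × N))
noncomputable instance : AddCommGroup (GT N) := inferInstanceAs (AddCommGroup ((YY →ₗ[B] N) × N))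
instance (i : ℕ) [Finite N] : Finite (JT i N) := inferInstanceAs (Finite N)
instance (i : ℕ) [Finite N] : Finite (DT i N) := inferInstanceAs (Finite (N × N))
instance [Finite N] : Finite (YY →ₗ[B] N) :=
  Finite.of_injective (fun φ : YY →ₗ[B] N => (φ : YY → N)) DFunLike.coe_injective
instance [Finite N] : Finite (GT N) := inferInstanceAs (Finite ((YY →ₗ[B] N) × N))

noncomputable def jData (i : ℕ) : AData (AddMonoid.End N) where
  β := Module.toAddMonoidEnd B N
  π j := if j = min i LLn then 1 else 0
  δ := 0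
  x _ := 0
  βπ b j := by split_ifs <;> simp
  βδ b := by simp
  ππ j := by split_ifs <;> simp
  ππ' j k h := by split_ifs <;> first | omega | simp
  sum := by rw [Finset.sum_ite_eq' ]; simp
  πδ := by simp
  π0 := by simp
  δδ := by simp
  xadd := by simp
  βx := by simp
  xβ := by simp
  xπ := by simp
  πx := by simp
  δx := by simp
  xδ := by simp

noncomputable instance (i : ℕ) : Module A (JT i N) := Module.compHom N (jData N i).lift

def dpi (i j : ℕ) : AddMonoid.End (N × N) :=
  AddMonoidHom.mk' (fun m => (if j = i then m.1 else 0, if j = i + 1 then m.2 else 0))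
    (fun a b => by ext <;> simp only [Prod.fst_add, Prod.snd_add] <;> split_ifs <;> simp)

theorem dpi_apply (i j : ℕ) (m : N × N) :
    dpi N i j m = (if j = i then m.1 else 0, if j = i + 1 then m.2 else 0) := rfl

def ddel : AddMonoid.End (N × N) :=
  AddMonoidHom.mk' (fun m => (0, m.1)) (fun a b => by ext <;> simp)

theorem ddel_apply (m : N × N) : ddel N m = (0, m.1) := rfl

theorem End_ext {V : Type} [AddCommGroup V] {f g : AddMonoid.End V} (h : ∀ v, f v = g v) : f = g :=
  AddMonoidHom.ext h

theorem End_mul {V : Type} [AddCommGroup V] (f g : AddMonoid.End V) (v : V) :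
    (f * g) v = f (g v) := rfl

theorem End_sum {V : Type} [AddCommGroup V] (s : Finset ℕ) (f : ℕ → AddMonoid.End V) (v : V) :
    (∑ i ∈ s, f i) v = ∑ i ∈ s, f i v := AddMonoidHom.finsetSum_apply f s v

theorem LLn_pos : 0 < LLn := by unfold LLn; omega

noncomputable def dData (i : ℕ) : AData (AddMonoid.End (N × N)) where
  β := Module.toAddMonoidEnd B (N × N)
  π j := dpi N (min i (LLn - 1)) j
  δ := ddel N
  x _ := 0
  βπ b j := End_ext fun m => by
    show b • dpi N _ j m = dpi N _ j (b • m)
    simp only [dpi_apply]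
    ext <;> simp only [Prod.smul_fst, Prod.smul_snd] <;> split_ifs <;> simp
  βδ b := End_ext fun m => by
    show b • ((0, m.1) : N × N) = (0, b • m.1)
    simp
  ππ j := End_ext fun m => by
    simp only [End_mul, dpi_apply]
    ext <;> simp only <;> split_ifs <;> simp
  ππ' j k h := End_ext fun m => by
    simp only [End_mul, dpi_apply]
    ext <;> simp only <;> split_ifs <;> first | omega | simp
  sum := End_ext fun m => by
    have := LLn_pos
    rw [End_sum]
    simp only [dpi_apply]
    ext
    · rw [Prod.fst_sum, Finset.sum_ite_eq']; simp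
    · rw [Prod.snd_sum, Finset.sum_ite_eq']; simp; omega
  πδ j := End_ext fun m => by
    simp only [End_mul, dpi_apply, ddel_apply]
    ext <;> simp
  π0 := End_ext fun m => by
    simp only [End_mul, dpi_apply, ddel_apply]
    ext <;> simp
  δδ := End_ext fun m => by
    simp only [End_mul, ddel_apply]
    rfl
  xadd := by simp
  βx := by simp
  xβ := by simp
  xπ := by simp
  πx := by simp
  δx := by simp
  xδ := by simp

noncomputable instance (i : ℕ) : Module A (DT i N) := Module.compHom (N × N) (dData N i).lift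

noncomputable def gmap (f : Module.End B YY) (g : N →+ N) : AddMonoid.End ((YY →ₗ[B] N) × N) :=
  AddMonoidHom.mk' (fun m => (m.1 ∘ₗ f, g m.2)) (fun a b => by ext <;> simp)

theorem gmap_apply (f : Module.End B YY) (g : N →+ N) (m : (YY →ₗ[B] N) × N) :
    gmap N f g m = (m.1 ∘ₗ f, g m.2) := rfl

noncomputable def gx (ξ : XX) : AddMonoid.End ((YY →ₗ[B] N) × N) :=
  AddMonoidHom.mk' (fun m => (ts m.2 ∘ₗ ξ, 0)) (fun a b => by ext <;> simp)

theorem gx_apply (ξ : XX) (m : (YY →ₗ[B] N) × N) : gx N ξ m = (ts m.2 ∘ₗ ξ, 0) := rfl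

theorem comp_mul {f g : Module.End B YY} (φ : YY →ₗ[B] N) : (φ ∘ₗ f) ∘ₗ g = φ ∘ₗ (f * g) := rfl

noncomputable def gData : AData (AddMonoid.End ((YY →ₗ[B] N) × N)) where
  β := RingHom.mk' ⟨⟨fun b => gmap N (DD.r b) (DistribSMul.toAddMonoidHom N b),
      End_ext fun m => by simp [gmap_apply, DD.r_one, Module.End.one_eq_id]⟩,
    fun a b => End_ext fun m => by
      simp only [End_mul, gmap_apply, DD.r_mul, comp_mul]
      simp [mul_smul]⟩
    (fun a b => End_ext fun m => by
      show gmap N _ _ m = gmap N _ _ m + gmap N _ _ m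
      simp [gmap_apply, DD.r_add, add_smul, LinearMap.comp_add])
  π j := gmap N (DD.p j) (if j = LLn then AddMonoidHom.id N else 0)
  δ := gmap N DD.d 0
  x ξ := gx N ξ
  βπ b j := End_ext fun m => by
    show gmap N _ _ (gmap N _ _ m) = gmap N _ _ (gmap N _ _ m)
    simp only [gmap_apply, comp_mul, DD.rp]
    split_ifs <;> simp
  βδ b := End_ext fun m => by
    show gmap N _ _ (gmap N _ _ m) = gmap N _ _ (gmap N _ _ m)
    simp only [gmap_apply, comp_mul, DD.rd]
    simp
  ππ j := End_ext fun m => by
    simp only [End_mul, gmap_apply, comp_mul, DD.pp]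
    split_ifs <;> simp
  ππ' j k h := End_ext fun m => by
    simp only [End_mul, gmap_apply, comp_mul, DD.pp' k j h.symm]
    split_ifs <;> first | omega | simp
  sum := End_ext fun m => by
    rw [End_sum]
    simp only [gmap_apply]
    refine Prod.ext ?_ ?_
    · rw [Prod.fst_sum]
      ext y
      have := LinearMap.congr_fun psum' y
      simp only [LinearMap.coe_sum, Finset.sum_apply, LinearMap.comp_apply, ← map_sum] at this ⊢
      rw [this]; rfl
    · rw [Prod.snd_sum, Finset.sum_eq_single LLn]
      · simp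
      · intro j _ hj; simp [hj]
      · simp
  πδ j := End_ext fun m => by
    simp only [End_mul, gmap_apply, comp_mul, DD.dp]
    simp
  π0 := End_ext fun m => by
    simp only [End_mul, gmap_apply, comp_mul, DD.dp0]
    simp
  δδ := End_ext fun m => by
    simp only [End_mul, gmap_apply, comp_mul, DD.dd]
    simp
  xadd a b := End_ext fun m => by
    show gx N _ m = gx N _ m + gx N _ m
    simp [gx_apply, LinearMap.comp_add]
  βx b ξ := End_ext fun m => by
    show gmap N _ _ (gx N _ m) = gx N _ m
    simp [gmap_apply, gx_apply, LinearMap.comp_assoc]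
  xβ b ξ := End_ext fun m => by
    show gx N _ (gmap N _ _ m) = gx N _ m
    simp only [gmap_apply, gx_apply]
    congr 1
    ext y
    simp [mul_smul]
  xπ ξ := End_ext fun m => by
    simp [End_mul, gmap_apply, gx_apply]
  πx j ξ := End_ext fun m => by
    simp [End_mul, gmap_apply, gx_apply, LinearMap.comp_assoc]
  δx ξ := End_ext fun m => by
    simp [End_mul, gmap_apply, gx_apply, LinearMap.comp_assoc]
  xδ ξ := End_ext fun m => by
    simp [End_mul, gmap_apply, gx_apply]

noncomputable instance : Module A (GT N) := Module.compHom ((YY →ₗ[B] N) × N) (gData N).lift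

variable {N}

def JT.mk (i : ℕ) (n : N) : JT i N := n
def JT.val {i : ℕ} (n : JT i N) : N := n
def DT.mk (i : ℕ) (a b : N) : DT i N := (a, b)
def GT.mk (φ : YY →ₗ[B] N) (b : N) : GT N := (φ, b)

theorem J_β (i : ℕ) (b : B) (m : JT i N) : AA.β b • m = JT.mk i (b • m.val) := by
  show (jData N i).lift (AA.β b) m = _
  rw [AData.lift_β]; rfl
theorem J_π {i : ℕ} (hi : i ≤ LLn) (j : ℕ) (m : JT i N) : AA.π j • m = if j = i then m else 0 := by
  show (jData N i).lift (AA.π j) m = _
  rw [AData.lift_π]
  show (if j = min i LLn then (1 : AddMonoid.End N) else 0) m = _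
  rw [min_eq_left hi]
  split_ifs <;> rfl
theorem J_δ (i : ℕ) (m : JT i N) : AA.δ • m = 0 := by
  show (jData N i).lift AA.δ m = _
  rw [AData.lift_δ]; rfl
theorem J_x (i : ℕ) (ξ) (m : JT i N) : AA.x ξ • m = 0 := by
  show (jData N i).lift (AA.x ξ) m = _
  rw [AData.lift_x]; rfl

theorem D_β (i : ℕ) (b : B) (m : DT i N) : AA.β b • m = DT.mk i (b • m.1) (b • m.2) := by
  show (dData N i).lift (AA.β b) m = _
  rw [AData.lift_β]; rfl
theorem D_π {i : ℕ} (hi : i < LLn) (j : ℕ) (m : DT i N) :
    AA.π j • m = DT.mk i (if j = i then m.1 else 0) (if j = i + 1 then m.2 else 0) := by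
  show (dData N i).lift (AA.π j) m = _
  rw [AData.lift_π]
  show dpi N (min i (LLn - 1)) j m = _
  rw [min_eq_left (by omega)]
  rfl
theorem D_δ (i : ℕ) (m : DT i N) : AA.δ • m = DT.mk i 0 m.1 := by
  show (dData N i).lift AA.δ m = _
  rw [AData.lift_δ]; rfl
theorem D_x (i : ℕ) (ξ) (m : DT i N) : AA.x ξ • m = 0 := by
  show (dData N i).lift (AA.x ξ) m = _
  rw [AData.lift_x]; rfl

theorem G_β (b : B) (m : GT N) : AA.β b • m = GT.mk (m.1 ∘ₗ DD.r b) (b • m.2) := by
  show (gData N).lift (AA.β b) m = _
  rw [AData.lift_β]; rfl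
theorem G_π (j : ℕ) (m : GT N) :
    AA.π j • m = GT.mk (m.1 ∘ₗ DD.p j) (if j = LLn then m.2 else 0) := by
  show (gData N).lift (AA.π j) m = _
  rw [AData.lift_π]
  refine (gmap_apply N _ _ m).trans ?_
  split_ifs <;> rfl
theorem G_δ (m : GT N) : AA.δ • m = GT.mk (m.1 ∘ₗ DD.d) 0 := by
  show (gData N).lift AA.δ m = _
  rw [AData.lift_δ]; rfl
theorem G_x (ξ) (m : GT N) : AA.x ξ • m = GT.mk (ts m.2 ∘ₗ ξ) 0 := by
  show (gData N).lift (AA.x ξ) m = _
  rw [AData.lift_x]; rfl

end Vale.Agent.P176
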