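import Mathlib

namespace Vale.Agent.P176

open CategoryTheory Limits Pretriangulated

universe v u

variable {T : Type u} [Category.{v} T] [HasZeroObject T] [HasShift T ℤ] [Preadditive T]
  [∀ (n : ℤ), (shiftFunctor T n).Additive] [Pretriangulated T]

theorem y2 {X Y Z M : T} {f : X ⟶ Y} {g : Y ⟶ Z} {h : Z ⟶ X⟦(1 : ℤ)⟧}
    (H : Triangle.mk f g h ∈ distTriang T) (φ : Y ⟶ M) (hφ : f ≫ φ = 0) :
    ∃ ψ : Z ⟶ M, φ = g ≫ ψ := Triangle.yoneda_exact₂ _ H φ hφ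

theorem y3 {X Y Z M : T} {f : X ⟶ Y} {g : Y ⟶ Z} {h : Z ⟶ X⟦(1 : ℤ)⟧}
    (H : Triangle.mk f g h ∈ distTriang T) (φ : Z ⟶ M) (hφ : g ≫ φ = 0) :
    ∃ ψ : X⟦(1 : ℤ)⟧ ⟶ M, φ = h ≫ ψ := Triangle.yoneda_exact₃ _ H φ hφ

theorem c1 {X Y Z M : T} {f : X ⟶ Y} {g : Y ⟶ Z} {h : Z ⟶ X⟦(1 : ℤ)⟧}
    (H : Triangle.mk f g h ∈ distTriang T) (φ : M ⟶ X⟦(1 : ℤ)⟧) (hφ : φ ≫ f⟦(1 : ℤ)⟧' = 0) :
    ∃ ψ : M ⟶ Z, φ = ψ ≫ h := Triangle.coyoneda_exact₁ _ H φ hφ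

structure Cone1 (P Q : T) (e : P ⟶ P) where
  i : P ⟶ Q
  p : Q ⟶ P⟦(1 : ℤ)⟧
  r : Q ⟶ P
  s : P⟦(1 : ℤ)⟧ ⟶ Q
  dist : Triangle.mk (𝟙 P - e) i p ∈ distTriang T
  ir : i ≫ r = e
  sr : s ≫ r = 0
  sp : s ≫ p = e⟦(1 : ℤ)⟧'

theorem exists_cone1 {P Q : T} {e : P ⟶ P} (he : e ≫ e = e) (i : P ⟶ Q) (p : Q ⟶ P⟦(1 : ℤ)⟧)
    (h : Triangle.mk (𝟙 P - e) i p ∈ distTriang T) : Nonempty (Cone1 P Q e) := by
  obtain ⟨r, hr⟩ := y2 h e (by simp [he])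
  obtain ⟨s, hs⟩ := c1 h (e⟦(1 : ℤ)⟧') (by
    rw [← Functor.map_comp]; simp [he])
  have ip : i ≫ p = 0 := comp_distTriang_mor_zero₂₃ _ h
  have he1 : e⟦(1 : ℤ)⟧' ≫ e⟦(1 : ℤ)⟧' = e⟦(1 : ℤ)⟧' := by rw [← Functor.map_comp, he]
  refine ⟨⟨i, p, r - p ≫ e⟦(1 : ℤ)⟧' ≫ s ≫ r, e⟦(1 : ℤ)⟧' ≫ s, h, ?_, ?_, ?_⟩⟩
  · rw [Preadditive.comp_sub, ← hr, ← Category.assoc, ip, zero_comp, sub_zero]
  · rw [Preadditive.comp_sub, Category.assoc, Category.assoc, ← Category.assoc s p, ← hs,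
      ← Category.assoc (e⟦(1 : ℤ)⟧') (e⟦(1 : ℤ)⟧'), he1, ← Category.assoc (e⟦(1 : ℤ)⟧') (e⟦(1 : ℤ)⟧'),
      he1, sub_self]
  · rw [Category.assoc, ← hs, he1]

namespace Cone1

variable {P Q : T} {e : P ⟶ P} (c : Cone1 P Q e)

def psi (a : P ⟶ P) : Q ⟶ Q := c.r ≫ a ≫ c.i + c.p ≫ a⟦(1 : ℤ)⟧' ≫ c.s

theorem ip : c.i ≫ c.p = 0 := comp_distTriang_mor_zero₂₃ _ c.dist

theorem ei : e ≫ c.i = c.i := by
  have : (𝟙 P - e) ≫ c.i = 0 := comp_distTriang_mor_zero₁₂ _ c.dist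
  rw [Preadditive.sub_comp, Category.id_comp, sub_eq_zero] at this
  exact this.symm

theorem pe : c.p ≫ e⟦(1 : ℤ)⟧' = c.p := by
  have : c.p ≫ (𝟙 P - e)⟦(1 : ℤ)⟧' = 0 := comp_distTriang_mor_zero₃₁ _ c.dist
  rw [Functor.map_sub, Preadditive.comp_sub, CategoryTheory.Functor.map_id, Category.comp_id, sub_eq_zero] at this
  exact this.symm

theorem psi_r (a : P ⟶ P) : c.psi a ≫ c.r = c.r ≫ a ≫ e := by
  simp [psi, c.ir, c.sr]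

theorem psi_p (a : P ⟶ P) : c.psi a ≫ c.p = c.p ≫ (a ≫ e)⟦(1 : ℤ)⟧' := by
  simp [psi, c.ip, c.sp]

theorem psi_mul (a b : P ⟶ P) (ha : e ≫ a = a ≫ e) (hb : e ≫ b = b ≫ e) :
    c.psi a ≫ c.psi b = c.psi (a ≫ b) := by
  nth_rewrite 2 [psi]
  rw [Preadditive.comp_add, ← Category.assoc, psi_r, ← Category.assoc (c.psi a), psi_p, psi]
  congr 1
  · simp only [Category.assoc]
    rw [← Category.assoc e, hb, Category.assoc, c.ei]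
  · rw [← ha]
    simp only [Functor.map_comp, Category.assoc]
    rw [← Category.assoc c.p, c.pe]

theorem bij0 (M : T) (h1 : ∀ φ : P ⟶ M, e ≫ φ = φ) (h2 : ∀ χ : P⟦(1 : ℤ)⟧ ⟶ M, χ = 0) :
    Function.Bijective (fun φ : P ⟶ M => c.r ≫ φ) := by
  constructor
  · intro φ φ' h
    have := congrArg (c.i ≫ ·) h
    simpa only [← Category.assoc, c.ir, h1] using this
  · intro f
    refine ⟨c.i ≫ f, ?_⟩
    obtain ⟨χ, hχ⟩ := y3 c.dist (f - c.r ≫ c.i ≫ f) (by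
      simp only [Preadditive.comp_sub]
      rw [← Category.assoc, c.ir, h1, sub_self])
    rw [h2 χ, comp_zero, sub_eq_zero] at hχ
    exact hχ.symm

theorem bij1 (M : T) (h1 : ∀ χ : P⟦(1 : ℤ)⟧ ⟶ M, e⟦(1 : ℤ)⟧' ≫ χ = χ) (h2 : ∀ φ : P ⟶ M, φ = 0) :
    Function.Bijective (fun χ : P⟦(1 : ℤ)⟧ ⟶ M => c.p ≫ χ) := by
  constructor
  · intro φ φ' h
    have := congrArg (c.s ≫ ·) h
    simpa only [← Category.assoc, c.sp, h1] using this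
  · intro f
    obtain ⟨χ, hχ⟩ := y3 c.dist f (h2 _)
    exact ⟨χ, hχ.symm⟩

include c in
theorem van (M : T) (h1 : ∀ χ : P⟦(1 : ℤ)⟧ ⟶ M, e⟦(1 : ℤ)⟧' ≫ χ = 0) (h2 : ∀ φ : P ⟶ M, e ≫ φ = 0)
    (f : Q ⟶ M) : f = 0 := by
  obtain ⟨χ, hχ⟩ := y3 c.dist f (by
    rw [← c.ei, Category.assoc, h2])
  rw [hχ]
  rw [← c.pe, Category.assoc, h1, comp_zero]

end Cone1

section frac
variable {C : Type*} {D : Type*} [Category C] [Category D] (L : C ⥤ D) (W : MorphismProperty C)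
  [L.IsLocalization W] [W.HasLeftCalculusOfFractions]

theorem common_frac {ι : Type*} [Finite ι] {X Y : C} (φ : ι → (L.obj X ⟶ L.obj Y)) :
    ∃ (Y' : C) (s : Y ⟶ Y') (f : ι → (X ⟶ Y')), W s ∧ ∀ i, L.map (f i) = φ i ≫ L.map s := by
  classical
  have := Fintype.ofFinite ι
  suffices h : ∀ F : Finset ι, ∃ (Y' : C) (s : Y ⟶ Y'), W s ∧
      ∀ i ∈ F, ∃ f : X ⟶ Y', L.map f = φ i ≫ L.map s by
    obtain ⟨Y', s, hs, h⟩ := h Finset.univ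
    choose f hf using h
    exact ⟨Y', s, fun i => f i (Finset.mem_univ i), hs, fun i => hf i _⟩
  intro F
  induction F using Finset.induction_on with
  | empty => exact ⟨Y, 𝟙 Y, W.id_mem Y, by simp⟩
  | insert a F _ ih =>
    obtain ⟨Y', s, hs, h⟩ := ih
    obtain ⟨ψ, hψ⟩ := Localization.exists_leftFraction L W (φ a ≫ L.map s)
    refine ⟨ψ.Y', s ≫ ψ.s, W.comp_mem _ _ hs ψ.hs, ?_⟩
    intro i hi
    rcases Finset.mem_insert.1 hi with rfl | hi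
    · refine ⟨ψ.f, ?_⟩
      rw [L.map_comp, ← Category.assoc, hψ, MorphismProperty.LeftFraction.map_comp_map_s]
    · obtain ⟨f, hf⟩ := h i hi
      exact ⟨f ≫ ψ.s, by rw [L.map_comp, hf, L.map_comp, Category.assoc]⟩

theorem common_eq {ι : Type*} [Finite ι] {X Y : C} (f g : ι → (X ⟶ Y))
    (h : ∀ i, L.map (f i) = L.map (g i)) :
    ∃ (Y' : C) (s : Y ⟶ Y'), W s ∧ ∀ i, f i ≫ s = g i ≫ s := by
  classical
  have := Fintype.ofFinite ι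
  suffices h : ∀ F : Finset ι, ∃ (Y' : C) (s : Y ⟶ Y'), W s ∧ ∀ i ∈ F, f i ≫ s = g i ≫ s by
    obtain ⟨Y', s, hs, h⟩ := h Finset.univ
    exact ⟨Y', s, hs, fun i => h i (Finset.mem_univ i)⟩
  intro F
  induction F using Finset.induction_on with
  | empty => exact ⟨Y, 𝟙 Y, W.id_mem Y, by simp⟩
  | insert a F _ ih =>
    obtain ⟨Y', s, hs, h'⟩ := ih
    have : L.map (f a ≫ s) = L.map (g a ≫ s) := by rw [L.map_comp, L.map_comp, h]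
    rw [MorphismProperty.map_eq_iff_postcomp L W] at this
    obtain ⟨Z, t, ht, e⟩ := this
    refine ⟨Z, s ≫ t, W.comp_mem _ _ hs ht, ?_⟩
    intro i hi
    rcases Finset.mem_insert.1 hi with rfl | hi
    · simpa using e
    · rw [← Category.assoc, h' i hi, Category.assoc]

end frac

end Vale.Agent.P176
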