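import Vale.Agent.P176.BAlg
import Vale.Agent.P176.Tri

namespace Vale.Agent.P176

open CategoryTheory Limits Pretriangulated HomologicalComplex ZeroObject

abbrev CC := CochainComplex (ModuleCat.{0} B) ℤ
abbrev KK := HomotopyCategory (ModuleCat.{0} B) (ComplexShape.up ℤ)
noncomputable abbrev qq : CC ⥤ KK := HomotopyCategory.quotient _ _

def FP (M : ModuleCat.{0} B) : Prop := Projective M ∧ Finite M

theorem FP.of_iso {M N : ModuleCat.{0} B} (e : M ≅ N) (h : FP N) : FP M :=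
  ⟨Projective.of_iso e.symm h.1, have := h.2; Finite.of_equiv N e.symm.toLinearEquiv.toEquiv⟩

theorem FP.biprod {M N : ModuleCat.{0} B} (h : FP M) (h' : FP N) : FP (M ⊞ N) := by
  have := h.1; have := h'.1; have := h.2; have := h'.2
  refine ⟨inferInstance, ?_⟩
  exact Finite.of_equiv (M × N) (ModuleCat.biprodIsoProd M N).symm.toLinearEquiv.toEquiv

theorem FP.of_isZero {M : ModuleCat.{0} B} (h : IsZero M) : FP M := by
  refine ⟨h.projective, ?_⟩
  have := ModuleCat.subsingleton_of_isZero h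
  infer_instance

def SP (Y : CC) : Prop :=
  (∀ i, FP (Y.X i)) ∧ ∃ n : ℕ, ∀ i : ℤ, (i < -(n : ℤ) ∨ (n : ℤ) < i) → IsZero (Y.X i)

theorem SP.biprod {X Y : CC} (h : SP X) (h' : SP Y) : SP (X ⊞ Y) := by
  obtain ⟨h1, n, hn⟩ := h
  obtain ⟨h2, m, hm⟩ := h'
  refine ⟨fun i => FP.of_iso (biprodXIso X Y i) ((h1 i).biprod (h2 i)), n + m, fun i hi => ?_⟩
  refine IsZero.of_iso ?_ (biprodXIso X Y i)
  rw [biprod_isZero_iff]
  exact ⟨hn i (by push_cast at hi; omega), hm i (by push_cast at hi; omega)⟩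

theorem SP.cone {X Y : CC} (f : X ⟶ Y) (h : SP X) (h' : SP Y) :
    SP (CochainComplex.mappingCone f) := by
  obtain ⟨h1, n, hn⟩ := h
  obtain ⟨h2, m, hm⟩ := h'
  refine ⟨fun i => FP.of_iso (homotopyCofiber.XIsoBiprod f i (i + 1) rfl)
    ((h1 _).biprod (h2 i)), n + m + 1, fun i hi => ?_⟩
  rw [CochainComplex.mappingCone.isZero_X_iff]
  exact ⟨hn _ (by push_cast at hi; omega), hm i (by push_cast at hi; omega)⟩

theorem SP.shift {X : CC} (h : SP X) (k : ℤ) : SP (X⟦k⟧) := by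
  obtain ⟨h1, n, hn⟩ := h
  refine ⟨fun i => h1 (i + k), n + k.natAbs, fun i hi => ?_⟩
  exact hn (i + k) (by omega)

theorem SP.single {M : ModuleCat.{0} B} (h : FP M) :
    SP ((HomologicalComplex.single _ (ComplexShape.up ℤ) 0).obj M) := by
  refine ⟨fun i => ?_, 0, fun i hi => isZero_single_obj_X _ _ _ _ (by omega)⟩
  by_cases hi : i = 0
  · subst hi; exact FP.of_iso (singleObjXSelf _ _ _) h
  · exact FP.of_isZero (isZero_single_obj_X _ _ _ _ hi)

def Perf : ObjectProperty KK := fun Y => ∃ Y' : CC, SP Y' ∧ Nonempty (Y ≅ qq.obj Y')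

instance : Perf.IsClosedUnderIsomorphisms where
  of_iso e := fun ⟨Y', h, ⟨e'⟩⟩ => ⟨Y', h, ⟨e.symm ≪≫ e'⟩⟩

theorem SP.perf {Y : CC} (h : SP Y) : Perf (qq.obj Y) := ⟨Y, h, ⟨Iso.refl _⟩⟩

instance : Perf.ContainsZero where
  exists_zero := ⟨qq.obj ((HomologicalComplex.single _ (ComplexShape.up ℤ) 0).obj 0),
    Functor.map_isZero _ (Functor.map_isZero _ (isZero_zero _)),
    (SP.single (FP.of_isZero (isZero_zero _))).perf⟩

instance : Perf.IsStableUnderShift ℤ where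
  isStableUnderShiftBy n := ⟨fun _ ⟨Y', h, ⟨e⟩⟩ =>
    ⟨Y'⟦n⟧, h.shift n, ⟨(shiftFunctor KK n).mapIso e ≪≫ ((qq.commShiftIso n).app Y').symm⟩⟩⟩

instance : Perf.IsTriangulatedClosed₃ := .mk' (by
  rintro T hT ⟨X, hX, ⟨eX⟩⟩ ⟨Y, hY, ⟨eY⟩⟩
  obtain ⟨f, hf⟩ := qq.map_surjective (eX.inv ≫ T.mor₁ ≫ eY.hom)
  refine ⟨_, hX.cone f hY, ⟨?_⟩⟩
  have h2 := HomotopyCategory.mappingCone_triangleh_distinguished f
  let e := isoTriangleOfIso₁₂ T _ hT h2 eX eY (by
    show T.mor₁ ≫ eY.hom = eX.hom ≫ qq.map f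
    rw [hf]; simp)
  exact Triangle.π₃.mapIso e)

instance : Perf.IsTriangulated where
  toIsTriangulatedClosed₂ := .of_isTriangulatedClosed₃

end Vale.Agent.P176
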