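import Vale.Agent.P176.Grp

set_option linter.constructorNameAsVariable false

namespace Vale.Agent.P176

abbrev F2 := ZMod 2

structure Rep where
  U : Type
  [ab : AddCommGroup U]
  [md : Module F2 U]
  [fin : Finite U]
  f : S → (Module.End F2 U)ˣ
  good : Good f

attribute [instance] Rep.ab Rep.md Rep.fin

def Rep.al (ρ : Rep) : Rep := { ρ with f := P176.al ρ.f, good := ρ.good.al }

def Rep.Z1 (ρ : Rep) : Prop := ρ.f .z = 1

def Rep.E0 (ρ : Rep) : Prop :=
  (1 : Module.End F2 ρ.U) + (ρ.f .z : Module.End F2 ρ.U) + ρ.f .z * ρ.f .z = 0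

section concrete
variable (N : ℕ)

abbrev O := ZMod N → ZMod 3
abbrev Om := O N × O N × O N

def sh (i : ZMod N) (a : O N) : O N := fun k => a (k - i)

@[simp] theorem sh_add (i : ZMod N) (a b : O N) : sh N i (a + b) = sh N i a + sh N i b := rfl
@[simp] theorem sh_neg (i : ZMod N) (a : O N) : sh N i (-a) = - sh N i a := rfl
@[simp] theorem sh_sub (i : ZMod N) (a b : O N) : sh N i (a - b) = sh N i a - sh N i b := rfl
@[simp] theorem sh_sh (i j : ZMod N) (a : O N) : sh N i (sh N j a) = sh N (i + j) a := by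
  funext k; simp [sh, sub_sub]
@[simp] theorem sh_zero (a : O N) : sh N 0 a = a := by funext k; simp [sh]

def d0 : O N := Pi.single 0 1

def pX : Equiv.Perm (Om N) :=
  ⟨fun p => (p.1 + p.2.1, p.2.1, p.2.2), fun p => (p.1 - p.2.1, p.2.1, p.2.2),
    fun p => by simp, fun p => by simp⟩
def pY (i : ZMod N) : Equiv.Perm (Om N) :=
  ⟨fun p => (p.1, p.2.1 + sh N i p.2.2, p.2.2), fun p => (p.1, p.2.1 - sh N i p.2.2, p.2.2),
    fun p => by simp, fun p => by simp⟩
def pW : Equiv.Perm (Om N) :=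
  ⟨fun p => (p.1, p.2.1, p.2.2 + d0 N), fun p => (p.1, p.2.1, p.2.2 - d0 N),
    fun p => by simp, fun p => by simp⟩
def pU : Equiv.Perm (Om N) :=
  ⟨fun p => (p.1, sh N (-1) p.2.1, p.2.2), fun p => (p.1, sh N 1 p.2.1, p.2.2),
    fun p => by simp, fun p => by simp⟩
def pT : Equiv.Perm (Om N) :=
  ⟨fun p => (p.1, p.2.1, sh N (-1) p.2.2), fun p => (p.1, p.2.1, sh N 1 p.2.2),
    fun p => by simp, fun p => by simp⟩
def pS : Equiv.Perm (Om N) :=
  ⟨fun p => (p.1, - p.2.1, p.2.2), fun p => (p.1, - p.2.1, p.2.2),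
    fun p => by simp, fun p => by simp⟩
def pTr (a : O N) : Equiv.Perm (Om N) :=
  ⟨fun p => (p.1 + a, p.2.1, p.2.2), fun p => (p.1 - a, p.2.1, p.2.2),
    fun p => by simp, fun p => by simp⟩

def f0 : S → Equiv.Perm (Om N)
  | .h => 1
  | .x => pX N
  | .y => pY N 0
  | .w => pW N
  | .u => pU N
  | .t => pT N
  | .sg => pS N
  | .c => pU N * pT N
  | .m1 => pY N 0 * pX N
  | .q => (pY N 0 * pX N)⁻¹ * (pX N * pY N 0)
  | .m2 => pW N * pY N 0
  | .v => (pW N * pY N 0)⁻¹ * (pY N 0 * pW N)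
  | .m3 => pW N * ((pY N 0 * pX N)⁻¹ * (pX N * pY N 0))
  | .z => (pW N * ((pY N 0 * pX N)⁻¹ * (pX N * pY N 0)))⁻¹ *
      (((pY N 0 * pX N)⁻¹ * (pX N * pY N 0)) * pW N)
  | .yb => pY N 0 * pY N 0

theorem three (a : O N) : a + a + a = 0 := by
  funext k
  have : ∀ b : ZMod 3, b + b + b = 0 := by decide
  exact this (a k)

theorem f0_good : Good (f0 N) := by
  apply Good'.good
  constructor <;> simp only [f0, Commute, SemiconjBy]
  all_goals try (first | rfl | group; done)
  all_goals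
    ext1 p
    simp [pX, pY, pW, pU, pT, pS, Equiv.Perm.mul_apply, Equiv.Perm.inv_def]
  all_goals try (abel; done)
  · ext1
    · rfl
    · ext1
      · have := three N p.2.2
        simp only
        linear_combination this
      · rfl
  · have := three N p.2.2
    linear_combination this

theorem iter_x (i : ℕ) : (al^[i] (f0 N)) .x = pX N ∧ (al^[i] (f0 N)) .w = pW N ∧
    (al^[i] (f0 N)) .t = pT N ∧ (al^[i] (f0 N)) .y = pY N (i : ZMod N) := by
  induction i with
  | zero => simp [f0]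
  | succ i ih =>
    obtain ⟨h1, h2, h3, h4⟩ := ih
    rw [Function.iterate_succ_apply']
    refine ⟨h1, h2, h3, ?_⟩
    simp only [al, h3, h4]
    ext1 p
    simp [pY, pT, Equiv.Perm.mul_apply, Equiv.Perm.inv_def]

theorem iter_good {G : Type*} [Group G] {f : S → G} (hf : Good f) (i : ℕ) : Good (al^[i] f) := by
  induction i with
  | zero => exact hf
  | succ i ih => rw [Function.iterate_succ_apply']; exact ih.al

theorem iter_z (i : ℕ) : (al^[i] (f0 N)) .z = pTr N (sh N (i : ZMod N) (d0 N)) := by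
  obtain ⟨h1, h2, -, h4⟩ := iter_x N i
  rw [(iter_good (f0_good N) i).good'.zword, h1, h2, h4]
  ext1 p
  simp [pX, pY, pW, pTr, Equiv.Perm.mul_apply, Equiv.Perm.inv_def]
  abel

def HH : Subgroup (Equiv.Perm (Om N)) := Subgroup.centralizer (Set.range (pTr N))

theorem f0_mem (g : S) : f0 N g ∈ HH N := by
  have hx : pX N ∈ HH N := by
    rintro _ ⟨a, rfl⟩; ext1 p; simp [pX, pTr, Equiv.Perm.mul_apply]; abel
  have hy : pY N 0 ∈ HH N := by
    rintro _ ⟨a, rfl⟩; ext1 p; simp [pY, pTr, Equiv.Perm.mul_apply]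
  have hw : pW N ∈ HH N := by
    rintro _ ⟨a, rfl⟩; ext1 p; simp [pW, pTr, Equiv.Perm.mul_apply]
  have hu : pU N ∈ HH N := by
    rintro _ ⟨a, rfl⟩; ext1 p; simp [pU, pTr, Equiv.Perm.mul_apply]
  have ht : pT N ∈ HH N := by
    rintro _ ⟨a, rfl⟩; ext1 p; simp [pT, pTr, Equiv.Perm.mul_apply]
  have hs : pS N ∈ HH N := by
    rintro _ ⟨a, rfl⟩; ext1 p; simp [pS, pTr, Equiv.Perm.mul_apply]
  cases g <;> simp only [f0] <;>
    repeat (first | assumption | exact one_mem _ | apply mul_mem | apply inv_mem)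

def f1 (g : S) : HH N := ⟨f0 N g, f0_mem N g⟩

theorem f1_good : Good (f1 N) :=
  ⟨Subtype.ext (f0_good N).h1, fun a b c d h => Subtype.ext ((f0_good N).rel a b c d h)⟩

theorem iter_map {G G' : Type*} [Group G] [Group G'] (φ : G →* G') (f : S → G) (i : ℕ) :
    al^[i] (fun g => φ (f g)) = fun g => φ (al^[i] f g) := by
  induction i with
  | zero => rfl
  | succ i ih => rw [Function.iterate_succ_apply', ih, al_map, Function.iterate_succ_apply']

theorem iter_z1 (i : ℕ) :
    ((al^[i] (f1 N)) .z : Equiv.Perm (Om N)) = pTr N (sh N (i : ZMod N) (d0 N)) := by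
  rw [← iter_z]
  exact (congrFun (iter_map (HH N).subtype (f1 N) i) .z).symm

variable (n : ZMod N)

def UU : Submodule F2 (Om N → F2) where
  carrier := {F | (∀ a : O N, a n = 0 → ∀ p, F ((pTr N a)⁻¹ p) = F p) ∧
    ∀ p, F p + F ((pTr N (sh N n (d0 N)))⁻¹ p) +
      F ((pTr N (sh N n (d0 N)))⁻¹ ((pTr N (sh N n (d0 N)))⁻¹ p)) = 0}
  add_mem' := by
    rintro F G ⟨h1, h2⟩ ⟨h3, h4⟩
    refine ⟨fun a ha p => by simp only [Pi.add_apply, h1 a ha, h3 a ha], fun p => ?_⟩
    simp only [Pi.add_apply]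
    linear_combination h2 p + h4 p
  zero_mem' := ⟨fun _ _ _ => rfl, fun _ => by simp⟩
  smul_mem' := by
    rintro c F ⟨h1, h2⟩
    refine ⟨fun a ha p => by simp only [Pi.smul_apply, h1 a ha], fun p => ?_⟩
    simp only [Pi.smul_apply, smul_eq_mul]
    linear_combination c * h2 p

theorem HH_comm (g : HH N) (a : O N) (p : Om N) :
    (g : Equiv.Perm (Om N))⁻¹ ((pTr N a)⁻¹ p) = (pTr N a)⁻¹ ((g : Equiv.Perm (Om N))⁻¹ p) := by
  have h := g.2 (pTr N a) ⟨a, rfl⟩
  rw [← Equiv.Perm.mul_apply, ← Equiv.Perm.mul_apply, ← mul_inv_rev, ← mul_inv_rev, h]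

def act : HH N →* Module.End F2 (UU N n) where
  toFun g :=
    { toFun := fun F => ⟨fun p => F.1 ((g : Equiv.Perm (Om N))⁻¹ p),
        fun a ha p => by beta_reduce; rw [HH_comm]; exact F.2.1 a ha _,
        fun p => by beta_reduce; rw [HH_comm, HH_comm, HH_comm]; exact F.2.2 _⟩
      map_add' := fun _ _ => rfl
      map_smul' := fun _ _ => rfl }
  map_one' := by ext F p; simp
  map_mul' := fun g g' => by ext F p; simp

def rep0 [NeZero N] : Rep where
  U := UU N n
  f := fun g => (act N n).toHomUnits (f1 N g)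
  good := (f1_good N).map _

theorem UU_nontriv : Nontrivial (UU N n) := by
  refine ⟨⟨fun p => if p.1 n = 0 then 0 else 1, ?_, ?_⟩, 0, ?_⟩
  · intro a ha p
    simp [pTr, Equiv.Perm.inv_def, ha]
  · intro p
    have : ∀ b : ZMod 3, (if b = 0 then (0 : F2) else 1) + (if b - 1 = 0 then (0 : F2) else 1) +
      (if b - 1 - 1 = 0 then (0 : F2) else 1) = 0 := by decide
    simpa [pTr, Equiv.Perm.inv_def, sh, d0] using this (p.1 n)
  · intro h
    have := congrFun (congrArg Subtype.val h) (fun _ => 1, 0, 0)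
    simp at this

end concrete

theorem iter_eq (ρ : Rep) (i : ℕ) :
    Rep.al^[i] ρ = { ρ with f := al^[i] ρ.f, good := iter_good ρ.good i } := by
  induction i with
  | zero => rfl
  | succ i ih =>
    rw [Function.iterate_succ_apply', ih]
    simp only [Rep.al, Function.iterate_succ_apply']

theorem exists_rep (n : ℕ) : ∃ ρ : Rep, Nontrivial ρ.U ∧ (∀ i < n, (Rep.al^[i] ρ).Z1) ∧
    (Rep.al^[n] ρ).E0 := by
  refine ⟨rep0 (n + 1) n, UU_nontriv _ _, ?_, ?_⟩
  · intro i hi
    rw [iter_eq]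
    show al^[i] (fun g => (act (n + 1) n).toHomUnits (f1 (n + 1) g)) S.z = 1
    rw [iter_map]
    ext F p
    simp only [MonoidHom.coe_toHomUnits, act, MonoidHom.coe_mk, OneHom.coe_mk, LinearMap.coe_mk,
      AddHom.coe_mk, iter_z1, Units.val_one, Module.End.one_apply]
    apply F.2.1
    have : ((n : ℕ) : ZMod (n + 1)) - (i : ℕ) ≠ 0 := by
      rw [sub_ne_zero]
      intro h
      rw [ZMod.natCast_eq_natCast_iff'] at h
      rw [Nat.mod_eq_of_lt (by omega), Nat.mod_eq_of_lt (by omega)] at h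
      omega
    simp [sh, d0, this]
  · rw [iter_eq]
    show (1 : Module.End F2 (UU (n + 1) n)) +
      (al^[n] (fun g => (act (n + 1) n).toHomUnits (f1 (n + 1) g)) S.z : (Module.End F2 (UU (n + 1) n))ˣ) +
      (al^[n] (fun g => (act (n + 1) n).toHomUnits (f1 (n + 1) g)) S.z : (Module.End F2 (UU (n + 1) n))ˣ) *
      (al^[n] (fun g => (act (n + 1) n).toHomUnits (f1 (n + 1) g)) S.z : (Module.End F2 (UU (n + 1) n))ˣ) = 0
    rw [iter_map]
    ext F p
    simp only [MonoidHom.coe_toHomUnits, act, MonoidHom.coe_mk, OneHom.coe_mk, LinearMap.coe_mk,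
      AddHom.coe_mk, iter_z1, Module.End.one_apply, LinearMap.add_apply,
      Module.End.mul_apply, Submodule.coe_add, Pi.add_apply, LinearMap.zero_apply]
    exact F.2.2 p

end Vale.Agent.P176
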