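import Vale.Agent.P176.Perf

set_option linter.constructorNameAsVariable false

namespace Vale.Agent.P176

open CategoryTheory Limits Pretriangulated HomologicalComplex ZeroObject

noncomputable abbrev sg (j : ℤ) : ModuleCat.{0} B ⥤ CC :=
  HomologicalComplex.single _ (ComplexShape.up ℤ) j

theorem toSingle_zero_iff {Y : CC} {N : ModuleCat.{0} B} {j : ℤ} (f : Y ⟶ (sg j).obj N) :
    qq.map f = 0 ↔ ∃ ψ : Y.X (j + 1) ⟶ N,
      f.f j ≫ (singleObjXSelf _ j N).hom = Y.d j (j + 1) ≫ ψ := by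
  rw [HomotopyCategory.quotient_map_eq_zero_iff]
  constructor
  · rintro ⟨h⟩
    refine ⟨h.hom (j + 1) j ≫ (singleObjXSelf _ j N).hom, ?_⟩
    have := h.comm j
    rw [dNext_eq _ (show (ComplexShape.up ℤ).Rel j (j + 1) from rfl),
      prevD_eq _ (show (ComplexShape.up ℤ).Rel (j - 1) j by simp)] at this
    rw [this]; simp
  · rintro ⟨ψ, hψ⟩
    let hom : ∀ i k, Y.X i ⟶ ((sg j).obj N).X k := fun i k =>
      if hi : i = j + 1 ∧ k = j then
        (Y.XIsoOfEq hi.1).hom ≫ ψ ≫ (singleObjXIsoOfEq _ j N k hi.2).inv else 0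
    refine ⟨⟨hom, ?_, ?_⟩⟩
    · intro i k hik
      apply dif_neg
      rintro ⟨rfl, rfl⟩
      exact hik rfl
    · intro i
      by_cases hi : i = j
      · subst hi
        rw [dNext_eq _ (show (ComplexShape.up ℤ).Rel i (i + 1) from rfl),
          prevD_eq _ (show (ComplexShape.up ℤ).Rel (i - 1) i by simp)]
        rw [← cancel_mono (singleObjXSelf _ i N).hom, hψ]
        simp [hom, singleObjXSelf]
      · exact (isZero_single_obj_X _ _ _ _ hi).eq_of_tgt _ _

def PE (v : Fin 3) : Submodule B B where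
  carrier := {b | b * BB.e v = b}
  add_mem' := fun {a b} ha hb => by
    simp only [Set.mem_ofPred_eq] at *; rw [add_mul, ha, hb]
  zero_mem' := by simp
  smul_mem' := fun c a ha => by
    simp only [Set.mem_ofPred_eq, smul_eq_mul] at *; rw [mul_assoc, ha]

noncomputable def rm (x : B) (v w : Fin 3) (hx : x * BB.e w = x) : PE v →ₗ[B] PE w where
  toFun b := ⟨b.1 * x, by show b.1 * x * _ = _; rw [mul_assoc, hx]⟩
  map_add' a b := Subtype.ext (add_mul _ _ _)
  map_smul' c a := Subtype.ext (mul_assoc _ _ _)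

noncomputable def toPE (v : Fin 3) : B →ₗ[B] PE v where
  toFun b := ⟨b * BB.e v, by show b * _ * _ = _; rw [mul_assoc, BB.ee]⟩
  map_add' a b := Subtype.ext (add_mul _ _ _)
  map_smul' c a := Subtype.ext (mul_assoc _ _ _)

instance (v : Fin 3) : Module.Projective B (PE v) :=
  Module.Projective.of_split (PE v).subtype (toPE v) (LinearMap.ext fun b => Subtype.ext b.2)

noncomputable abbrev Pm (v : Fin 3) : ModuleCat.{0} B := ModuleCat.of B (PE v)
noncomputable abbrev Nm (ρ : Rep) : ModuleCat.{0} B := ModuleCat.of B (Md ρ)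

theorem Pm_FP (v : Fin 3) : FP (Pm v) := ⟨inferInstance, inferInstanceAs (Finite (PE v))⟩

noncomputable def sng (ρ : Rep) (v : Fin 3) (u : ρ.U) : Md ρ := (Pi.single v u : Fin 3 → ρ.U)

noncomputable def hm (ρ : Rep) (v : Fin 3) (u : ρ.U) : Pm v ⟶ Nm ρ :=
  ModuleCat.ofHom ((LinearMap.toSpanSingleton B (Md ρ) (sng ρ v u)) ∘ₗ (PE v).subtype)

theorem hm_add (ρ : Rep) (v : Fin 3) (u u' : ρ.U) : hm ρ v (u + u') = hm ρ v u + hm ρ v u' := by
  ext b
  show b.1 • sng ρ v (u + u') = b.1 • sng ρ v u + b.1 • sng ρ v u'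
  rw [← smul_add]
  congr 1
  exact Pi.single_add (f := fun _ => ρ.U) v u u'

theorem hm_bij (ρ : Rep) (v : Fin 3) : Function.Bijective (hm ρ v) := by
  constructor
  · intro u u' h
    have : BB.e v • sng ρ v u = BB.e v • sng ρ v u' :=
      congrArg (fun φ : Pm v ⟶ Nm ρ => φ.hom ⟨BB.e v, BB.ee v⟩) h
    rw [md_e, md_e] at this
    simpa [sng] using congrFun this v
  · intro φ
    refine ⟨(φ.hom ⟨BB.e v, BB.ee v⟩ : Md ρ) v, ?_⟩
    ext b
    show b.1 • sng ρ v _ = φ.hom b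
    rw [sng, ← md_e, ← map_smul, ← map_smul]
    congr 1
    apply Subtype.ext
    show b.1 * (BB.e v * BB.e v) = b.1
    rw [BB.ee]; exact b.2

noncomputable def ma (g : S) : Pm 1 ⟶ Pm 0 := ModuleCat.ofHom (rm (BB.a g) 1 0 (BB.ae g))
noncomputable def mb (g : S) : Pm 2 ⟶ Pm 1 := ModuleCat.ofHom (rm (BB.b g) 2 1 (BB.be g))

theorem ma_hm (ρ : Rep) (g : S) (u : ρ.U) :
    ma g ≫ hm ρ 0 u = hm ρ 1 ((ρ.f g : Module.End F2 ρ.U) u) := by
  ext b
  show (b.1 * BB.a g) • sng ρ 0 u = b.1 • sng ρ 1 _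
  rw [mul_smul, md_a]; simp [sng]

theorem mb_hm (ρ : Rep) (g : S) (u : ρ.U) :
    mb g ≫ hm ρ 1 u = hm ρ 2 ((ρ.f g : Module.End F2 ρ.U) u) := by
  ext b
  show (b.1 * BB.b g) • sng ρ 1 u = b.1 • sng ρ 2 _
  rw [mul_smul, md_b]; simp [sng]

theorem mb_ma {p q r s : S} (h : Rel (p, q, r, s)) : mb p ≫ ma q = mb r ≫ ma s := by
  ext b
  show b.1 * BB.b p * BB.a q = b.1 * BB.b r * BB.a s
  rw [mul_assoc, mul_assoc, BB.rel p q r s h]

noncomputable abbrev sq (j : ℤ) : ModuleCat.{0} B ⥤ KK := sg j ⋙ qq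

theorem sq_bij (M N : ModuleCat.{0} B) :
    Function.Bijective (fun f : M ⟶ N => (sq 0).map f) := by
  constructor
  · intro f g h
    have h' : qq.map ((sg 0).map (f - g)) = 0 := by
      rw [Functor.map_sub, Functor.map_sub, sub_eq_zero]; exact h
    obtain ⟨ψ, hψ⟩ := (toSingle_zero_iff _).1 h'
    rw [single_map_f_self] at hψ
    simpa [sub_eq_zero] using hψ
  · intro f
    exact (sq 0).map_surjective f

theorem sq_zero (M N : ModuleCat.{0} B) {j : ℤ} (hj : j ≠ 0) (f : (sq 0).obj M ⟶ (sq j).obj N) :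
    f = 0 := by
  obtain ⟨f, rfl⟩ := qq.map_surjective f
  have : f = 0 := to_single_hom_ext ((isZero_single_obj_X _ _ _ _ hj).eq_of_src _ _)
  rw [this, Functor.map_zero]

noncomputable def sqShift (N : ModuleCat.{0} B) (n a a' : ℤ) (h : n + a = a') :
    ((sq a').obj N)⟦n⟧ ≅ (sq a).obj N :=
  ((HomotopyCategory.singleFunctors (ModuleCat.{0} B)).shiftIso n a a' h).app N

end Vale.Agent.P176
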