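import Vale.Agent.P176.Mods

set_option linter.constructorNameAsVariable false

namespace Vale.Agent.P176

section
variable {N N' N'' : Type} [AddCommGroup N] [Module B N] [AddCommGroup N'] [Module B N']
  [AddCommGroup N''] [Module B N'']

@[simp] theorem DT.mk_1 (i : ℕ) (a b : N) : (DT.mk i a b).1 = a := rfl
@[simp] theorem DT.mk_2 (i : ℕ) (a b : N) : (DT.mk i a b).2 = b := rfl
@[simp] theorem DT.add_1 {i : ℕ} (a b : DT i N) : (a + b).1 = a.1 + b.1 := rfl
@[simp] theorem DT.add_2 {i : ℕ} (a b : DT i N) : (a + b).2 = a.2 + b.2 := rfl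
@[simp] theorem DT.zero_1 {i : ℕ} : (0 : DT i N).1 = 0 := rfl
@[simp] theorem DT.zero_2 {i : ℕ} : (0 : DT i N).2 = 0 := rfl
theorem DT.ext {i : ℕ} {a b : DT i N} (h1 : a.1 = b.1) (h2 : a.2 = b.2) : a = b := Prod.ext h1 h2
@[simp] theorem GT.mk_1 (a : YY →ₗ[B] N) (b : N) : (GT.mk a b).1 = a := rfl
@[simp] theorem GT.mk_2 (a : YY →ₗ[B] N) (b : N) : (GT.mk a b).2 = b := rfl
@[simp] theorem GT.add_1 (a b : GT N) : (a + b).1 = a.1 + b.1 := rfl
@[simp] theorem GT.add_2 (a b : GT N) : (a + b).2 = a.2 + b.2 := rfl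
@[simp] theorem GT.zero_1 : (0 : GT N).1 = 0 := rfl
@[simp] theorem GT.zero_2 : (0 : GT N).2 = 0 := rfl
theorem GT.ext {a b : GT N} (h1 : a.1 = b.1) (h2 : a.2 = b.2) : a = b := Prod.ext h1 h2
@[simp] theorem JT.mk_val (i : ℕ) (a : N) : (JT.mk i a).val = a := rfl
@[simp] theorem JT.add_val {i : ℕ} (a b : JT i N) : (a + b).val = a.val + b.val := rfl
@[simp] theorem JT.zero_val {i : ℕ} : (0 : JT i N).val = 0 := rfl
theorem JT.ext {i : ℕ} {a b : JT i N} (h1 : a.val = b.val) : a = b := h1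

noncomputable def Dmap {i : ℕ} (hi : i < LLn) (f : N →ₗ[B] N') : DT i N →ₗ[A] DT i N' :=
  mkLin (AddMonoidHom.mk' (fun m => DT.mk i (f m.1) (f m.2))
      (fun a b => DT.ext (by simp) (by simp)))
    (fun b m => by simp [D_β])
    (fun j m => by
      simp only [D_π hi, AddMonoidHom.mk'_apply, DT.mk_1, DT.mk_2]
      split_ifs <;> simp)
    (fun m => by simp [D_δ])
    (fun ξ m => by simp only [D_x, map_zero])

theorem Dmap_apply {i : ℕ} (hi : i < LLn) (f : N →ₗ[B] N') (m : DT i N) :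
    Dmap hi f m = DT.mk i (f m.1) (f m.2) := rfl

noncomputable def Gmap (f : N →ₗ[B] N') : GT N →ₗ[A] GT N' :=
  mkLin (AddMonoidHom.mk' (fun m => GT.mk (f ∘ₗ m.1) (f m.2))
      (fun a b => GT.ext (by simp [LinearMap.comp_add]) (by simp)))
    (fun b m => by simp [G_β, LinearMap.comp_assoc])
    (fun j m => by
      simp only [G_π, AddMonoidHom.mk'_apply, GT.mk_1, GT.mk_2, LinearMap.comp_assoc]
      split_ifs <;> simp)
    (fun m => by simp [G_δ, LinearMap.comp_assoc])
    (fun ξ m => by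
      simp only [G_x, AddMonoidHom.mk'_apply, GT.mk_1, GT.mk_2, map_zero]
      congr 1
      ext y; simp)

theorem Gmap_apply (f : N →ₗ[B] N') (m : GT N) :
    Gmap f m = GT.mk (f ∘ₗ m.1) (f m.2) := rfl

theorem D_ses {i : ℕ} (hi : i < LLn) (h : SES B N N' N'') :
    SES A (DT i N) (DT i N') (DT i N'') := by
  obtain ⟨f, g, hf, e, hg⟩ := h
  refine ⟨Dmap hi f, Dmap hi g, ?_, ?_, ?_⟩
  · intro a b h
    exact DT.ext (hf (congrArg Prod.fst h)) (hf (congrArg Prod.snd h))
  · intro m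
    constructor
    · intro h
      obtain ⟨a, ha⟩ := (e m.1).1 (congrArg Prod.fst h)
      obtain ⟨b, hb⟩ := (e m.2).1 (congrArg Prod.snd h)
      exact ⟨DT.mk i a b, DT.ext ha hb⟩
    · rintro ⟨a, rfl⟩
      exact DT.ext (e.apply_apply_eq_zero _) (e.apply_apply_eq_zero _)
  · intro m
    obtain ⟨a, ha⟩ := hg m.1
    obtain ⟨b, hb⟩ := hg m.2
    exact ⟨DT.mk i a b, DT.ext ha hb⟩

theorem G_ses (h : SES B N N' N'') : SES A (GT N) (GT N') (GT N'') := by
  obtain ⟨f, g, hf, e, hg⟩ := h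
  refine ⟨Gmap f, Gmap g, ?_, ?_, ?_⟩
  · intro a b h
    refine GT.ext (LinearMap.ext fun y => hf ?_) (hf (congrArg Prod.snd h))
    exact LinearMap.congr_fun (congrArg Prod.fst h) y
  · intro m
    constructor
    · intro h
      have h1 : ∀ y, m.1 y ∈ LinearMap.range f := fun y =>
        (e _).1 (LinearMap.congr_fun (congrArg Prod.fst h) y)
      obtain ⟨b, hb⟩ := (e m.2).1 (congrArg Prod.snd h)
      refine ⟨GT.mk ((LinearEquiv.ofInjective f hf).symm.toLinearMap ∘ₗ
        m.1.codRestrict _ h1) b, GT.ext ?_ hb⟩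
      ext y
      exact congrArg Subtype.val ((LinearEquiv.ofInjective f hf).apply_symm_apply ⟨m.1 y, h1 y⟩)
    · rintro ⟨a, rfl⟩
      exact GT.ext (LinearMap.ext fun y => e.apply_apply_eq_zero _) (e.apply_apply_eq_zero _)
  · intro m
    obtain ⟨a, ha⟩ := Module.projective_lifting_property g m.1 hg
    obtain ⟨b, hb⟩ := hg m.2
    exact ⟨GT.mk a b, GT.ext ha hb⟩

theorem JD_ses {i : ℕ} (hi : i < LLn) : SES A (JT (i + 1) N) (DT i N) (JT i N) := by
  refine ⟨mkLin (AddMonoidHom.mk' (fun m => DT.mk i 0 m.val) (fun a b => DT.ext (by simp) (by simp)))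
      (fun b m => by simp [D_β, J_β]) (fun j m => ?_) (fun m => ?_) (fun ξ m => ?_),
    mkLin (AddMonoidHom.mk' (fun m => JT.mk i m.1) (fun a b => rfl))
      (fun b m => by rw [D_β, J_β]; rfl) (fun j m => ?_) (fun m => ?_) (fun ξ m => ?_), ?_, ?_, ?_⟩
  · simp only [J_π (show i + 1 ≤ LLn from hi), D_π hi, AddMonoidHom.mk'_apply, DT.mk_1, DT.mk_2]
    split_ifs <;> simp
  · rw [J_δ, D_δ]; rfl
  · rw [J_x, D_x]; rfl
  · simp only [J_π hi.le, D_π hi, AddMonoidHom.mk'_apply, DT.mk_1]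
    split_ifs <;> rfl
  · rw [J_δ, D_δ]; rfl
  · rw [J_x, D_x]; rfl
  · intro a b h
    exact congrArg Prod.snd h
  · intro m
    constructor
    · intro h
      exact ⟨JT.mk _ m.2, DT.ext (Eq.symm h) rfl⟩
    · rintro ⟨a, rfl⟩; rfl
  · intro m
    exact ⟨DT.mk i m.val 0, rfl⟩

variable (N) in
noncomputable def Gsnd : GT N →ₗ[A] JT LLn N :=
  mkLin (AddMonoidHom.mk' (fun m => JT.mk LLn m.2) (fun a b => rfl))
    (fun b m => by rw [G_β, J_β]; rfl)
    (fun j m => by
      simp only [J_π le_rfl, G_π, AddMonoidHom.mk'_apply, GT.mk_2]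
      split_ifs <;> rfl)
    (fun m => by rw [J_δ, G_δ]; rfl) (fun ξ m => by rw [J_x, G_x]; rfl)

theorem Gsnd_surj : Function.Surjective (Gsnd N) := fun m => ⟨GT.mk 0 m.val, rfl⟩

end

theorem xπ' (ξ : XX) {i : ℕ} (hi : i ≠ LLn) : AA.x ξ * AA.π i = 0 := by
  rw [← AA.xπ, mul_assoc, AA.ππ' _ _ hi.symm, mul_zero]

theorem xx (ξ ξ' : XX) : AA.x ξ * AA.x ξ' = 0 := by
  rw [← AA.xπ, mul_assoc, AA.πx, pbig (by unfold LLn; omega), LinearMap.comp_zero, AA.x0, mul_zero]

theorem πδπ (j i : ℕ) : AA.π j * (AA.δ * AA.π i) = if j = i + 1 then AA.δ * AA.π i else 0 := by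
  rw [← AA.πδ, ← mul_assoc]
  split_ifs with h
  · rw [h, AA.ππ]
  · rw [AA.ππ' _ _ h, zero_mul]

theorem ππi (j i : ℕ) : AA.π j * AA.π i = if j = i then AA.π i else 0 := by
  split_ifs with h
  · rw [h, AA.ππ]
  · rw [AA.ππ' _ _ h]

theorem πβ (j : ℕ) (b : B) (a : A) : AA.π j * (AA.β b * a) = AA.β b * (AA.π j * a) := by
  rw [← mul_assoc, ← AA.βπ, mul_assoc]

section
variable {M : Type} [AddCommGroup M] [Module A M]

noncomputable def Dto {i : ℕ} (hi : i < LLn) : DT i B →ₗ[A] A :=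
  mkLin (AddMonoidHom.mk' (fun m => AA.β m.1 * AA.π i + AA.β m.2 * (AA.δ * AA.π i))
      (fun a b => by simp only [DT.add_1, DT.add_2, map_add]; noncomm_ring))
    (fun b m => by simp [D_β, mul_add, mul_assoc])
    (fun j m => by
      simp only [D_π hi, AddMonoidHom.mk'_apply, DT.mk_1, DT.mk_2, smul_eq_mul, mul_add]
      rw [πβ, πβ, ππi, πδπ]
      split_ifs <;> simp)
    (fun m => by
      simp only [D_δ, AddMonoidHom.mk'_apply, DT.mk_1, DT.mk_2, smul_eq_mul, mul_add, map_zero]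
      rw [← mul_assoc AA.δ, ← AA.βδ, ← mul_assoc AA.δ, ← AA.βδ, mul_assoc _ AA.δ (AA.δ * _),
        ← mul_assoc AA.δ, AA.δδ]
      simp [mul_assoc])
    (fun ξ m => by
      simp only [D_x, map_zero, AddMonoidHom.mk'_apply, smul_eq_mul, mul_add]
      rw [← mul_assoc, AA.xβ, xπ' _ hi.ne, ← mul_assoc, AA.xβ, ← mul_assoc, AA.xδ]
      simp)

theorem Dto_apply {i : ℕ} (hi : i < LLn) (m : DT i B) :
    Dto hi m = AA.β m.1 * AA.π i + AA.β m.2 * (AA.δ * AA.π i) := rfl

noncomputable def Gto : GT B →ₗ[A] A :=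
  mkLin (AddMonoidHom.mk' (fun m => AA.x m.1 + AA.β m.2 * AA.π LLn)
      (fun a b => by simp only [GT.add_1, GT.add_2, map_add, AA.xadd]; noncomm_ring))
    (fun b m => by simp [G_β, mul_add, mul_assoc, AA.βx])
    (fun j m => by
      simp only [G_π, AddMonoidHom.mk'_apply, GT.mk_1, GT.mk_2, smul_eq_mul, mul_add, AA.πx]
      rw [← mul_assoc, ← AA.βπ, mul_assoc, ππi]
      split_ifs <;> simp)
    (fun m => by
      simp only [G_δ, AddMonoidHom.mk'_apply, GT.mk_1, GT.mk_2, smul_eq_mul, mul_add, map_zero,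
        AA.δx]
      rw [← mul_assoc AA.δ, ← AA.βδ, mul_assoc, ← AA.πδ, AA.πbig (Nat.lt_succ_self _)]
      simp)
    (fun ξ m => by
      simp only [G_x, map_zero, AddMonoidHom.mk'_apply, smul_eq_mul, mul_add, GT.mk_1, GT.mk_2, xx]
      rw [← mul_assoc, AA.xβ, AA.xπ]
      simp)

theorem Gto_apply (m : GT B) : Gto m = AA.x m.1 + AA.β m.2 * AA.π LLn := rfl

theorem D_proj {i : ℕ} (hi : i < LLn) : Module.Projective A (DT i B) := by
  refine Module.Projective.of_split (Dto hi) (LinearMap.toSpanSingleton A _ (DT.mk i 1 0)) ?_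
  refine LinearMap.ext fun m => ?_
  simp only [LinearMap.comp_apply, LinearMap.toSpanSingleton_apply, Dto_apply, add_smul, mul_smul,
    D_π hi, D_δ, D_β]
  refine DT.ext ?_ ?_ <;> simp

theorem G_proj : Module.Projective A (GT B) := by
  refine Module.Projective.of_split Gto (LinearMap.toSpanSingleton A _ (GT.mk 0 1)) ?_
  refine LinearMap.ext fun m => ?_
  simp only [LinearMap.comp_apply, LinearMap.toSpanSingleton_apply, Gto_apply, add_smul, mul_smul,
    G_π, G_x, G_β]
  refine GT.ext ?_ ?_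
  · ext y; simp
  · simp

theorem A_decomp (a : A) : a = ∑ i : Fin LLn, Dto i.2 (a • DT.mk i 1 0) + Gto (a • GT.mk 0 1) := by
  simp only [map_smul, Dto_apply, Gto_apply, DT.mk_1, DT.mk_2, GT.mk_1, GT.mk_2, map_one, map_zero,
    one_mul, zero_mul, add_zero, AA.x0, zero_add, smul_eq_mul]
  rw [← Finset.mul_sum, ← mul_add, Fin.sum_univ_eq_sum_range AA.π, ← Finset.sum_range_succ, AA.sum,
    mul_one]

instance : Finite A := by
  refine Finite.of_injective
    (fun a : A => ((fun i : Fin LLn => a • DT.mk i (1 : B) 0), a • GT.mk 0 (1 : B))) ?_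
  intro a b h
  rw [A_decomp a, A_decomp b]
  simp only [Prod.mk.injEq] at h
  rw [h.2]
  congr 1
  exact Finset.sum_congr rfl fun i _ => by rw [congrFun h.1 i]

def Ex (M : Type) [AddCommGroup M] [Module A M] (j : ℕ) : Prop :=
  ∀ m : M, AA.π j • m = m → AA.δ • m = 0 → ∃ m', m = AA.δ • m'

theorem A_ex {j : ℕ} (h1 : 2 * DD.n < j) (h2 : j < LLn) : Ex A j := by
  intro a ha hd
  have e1 : ∀ i : Fin LLn, ∃ m : DT i B, a • DT.mk i (1 : B) 0 = AA.δ • m := by
    intro i
    have : AA.δ • a • DT.mk i (1 : B) 0 = 0 := by rw [← mul_smul, ← smul_eq_mul, hd, zero_smul]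
    rw [D_δ] at this
    refine ⟨DT.mk i (a • DT.mk i (1 : B) 0).2 0, ?_⟩
    rw [D_δ]
    exact DT.ext (congrArg Prod.snd this) rfl
  have e2 : a • GT.mk 0 (1 : B) = 0 := by
    rw [← ha, smul_eq_mul, mul_smul, G_π, pbig h1, if_neg h2.ne]
    exact GT.ext (LinearMap.comp_zero _) rfl
  choose m hm using e1
  refine ⟨∑ i : Fin LLn, Dto i.2 (m i), ?_⟩
  nth_rewrite 1 [A_decomp a]
  rw [e2, map_zero, add_zero, Finset.smul_sum]
  exact Finset.sum_congr rfl fun i _ => by rw [hm, map_smul]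

end

theorem pd_three (Q : (N : Type) → [AddCommGroup N] → [Module B N] → ℕ → Prop)
    (mono : ∀ (N : Type) [AddCommGroup N] [Module B N] n m, Q N n → n ≤ m → Q N m)
    (x2 : ∀ (N N' N'' : Type) [AddCommGroup N] [Module B N] [AddCommGroup N'] [Module B N']
      [AddCommGroup N''] [Module B N''] n, SES B N N' N'' → Q N n → Q N'' n → Q N' n)
    (x3 : ∀ (N N' N'' : Type) [AddCommGroup N] [Module B N] [AddCommGroup N'] [Module B N']
      [AddCommGroup N''] [Module B N''] n, SES B N N' N'' → Q N n → Q N' (n + 1) → Q N'' (n + 1))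
    (hP : ∀ v, Q (PE v) 1)
    (h0 : ∀ (N : Type) [AddCommGroup N] [Module B N], Subsingleton N → Q N 0)
    (N : Type) [AddCommGroup N] [Module B N] [Finite N] : Q N 3 := by
  suffices H : ∀ k ≤ 3, ∀ (N : Type) [AddCommGroup N] [Module B N] [Finite N],
      (∀ w : Fin 3, w.1 + k < 3 → ∀ n : N, BB.e w • n = 0) → Q N k from
    H 3 le_rfl N (fun w hw => by omega)
  intro k
  induction k with
  | zero =>
    intro _ N _ _ _ h
    refine h0 N ⟨fun a b => ?_⟩
    have : ∀ a : N, a = 0 := fun a => by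
      rw [← one_smul B a, ← e_sum, Finset.sum_smul]
      exact Finset.sum_eq_zero fun w _ => h w (by omega) a
    rw [this a, this b]
  | succ k ih =>
    intro hk N _ _ _
    induction hc : Nat.card N using Nat.strong_induction_on generalizing N with
    | _ c ihc =>
    intro h
    let v : Fin 3 := ⟨2 - k, by omega⟩
    by_cases hv : ∀ n : N, BB.e v • n = 0
    · refine mono _ _ _ (ih (by omega) N fun w hw => ?_) (by omega)
      by_cases hw' : w = v
      · rw [hw']; exact hv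
      · refine h w ?_
        have : w.1 ≠ 2 - k := fun e => hw' (Fin.ext e)
        omega
    · push Not at hv
      obtain ⟨n, hn⟩ := hv
      let φ : PE v →ₗ[B] N := ts n ∘ₗ (PE v).subtype
      have s1 : SES B (LinearMap.ker φ.rangeRestrict) (PE v) (LinearMap.range φ) :=
        ses_ker _ φ.surjective_rangeRestrict
      have s2 := ses_quot (LinearMap.range φ)
      refine x2 _ _ _ _ s2 (x3 _ _ _ _ s1 (ih (by omega) _ ?_) (mono _ _ _ (hP v) (by omega))) ?_
      · rintro w hw ⟨⟨b, hb⟩, hb'⟩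
        apply Subtype.ext
        apply Subtype.ext
        show BB.e w * b = 0
        have hb1 : b * BB.e v = b := hb
        have hb2 : b • n = 0 := congrArg Subtype.val hb'
        by_cases hw' : w = v
        · subst hw'
          rcases (B_tri b v v).2 with e | e
          · rwa [mul_assoc, hb1] at e
          · rw [mul_assoc, hb1] at e
            exact absurd (by rw [← e, mul_smul, hb2, smul_zero]) hn
        · have : w.1 ≠ 2 - k := fun e => hw' (Fin.ext e)
          have e := (B_tri b w v).1 (show w.1 < 2 - k by omega)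
          rwa [mul_assoc, hb1] at e
      · have : Finite (N ⧸ LinearMap.range φ) :=
          Finite.of_surjective _ (LinearMap.range φ).mkQ_surjective
        refine ihc _ ?_ _ rfl ?_
        · rw [← hc, Submodule.card_eq_card_quotient_mul_card (LinearMap.range φ)]
          have : Nontrivial (LinearMap.range φ) :=
            ⟨⟨_, ⟨BB.e v, BB.ee v⟩, rfl⟩, 0, fun e => hn (congrArg Subtype.val e)⟩
          have h1 : 1 < Nat.card (LinearMap.range φ) := Finite.one_lt_card
          have h2 : 0 < Nat.card (N ⧸ LinearMap.range φ) := Nat.card_pos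
          nlinarith
        · intro w hw m
          obtain ⟨m, rfl⟩ := Submodule.Quotient.mk_surjective _ m
          rw [← Submodule.Quotient.mk_smul, h w hw, Submodule.Quotient.mk_zero]

theorem D_pd {i : ℕ} (hi : i < LLn) (N : Type) [AddCommGroup N] [Module B N] [Finite N] :
    PD A (DT i N) 3 := by
  refine pd_three (fun N _ _ n => PD A (DT i N) n) (fun _ _ _ _ _ h => h.mono)
    (fun _ _ _ _ _ _ _ _ _ _ h => (D_ses hi h).x2) (fun _ _ _ _ _ _ _ _ _ _ h => (D_ses hi h).x3)
    (fun v => ?_) (fun N _ _ h => ?_) N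
  · have := D_proj hi
    have : Module.Projective A (DT i (PE v)) :=
      Module.Projective.of_split (Dmap hi (PE v).subtype) (Dmap hi (toPE v))
        (LinearMap.ext fun m => DT.ext (Subtype.ext m.1.2) (Subtype.ext m.2.2))
    exact PD.of_proj
  · have : Subsingleton (DT i N) := inferInstanceAs (Subsingleton (N × N))
    exact PD.of_subsingleton _

theorem G_pd (N : Type) [AddCommGroup N] [Module B N] [Finite N] : PD A (GT N) 3 := by
  refine pd_three (fun N _ _ n => PD A (GT N) n) (fun _ _ _ _ _ h => h.mono)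
    (fun _ _ _ _ _ _ _ _ _ _ h => (G_ses h).x2) (fun _ _ _ _ _ _ _ _ _ _ h => (G_ses h).x3)
    (fun v => ?_) (fun N _ _ h => ?_) N
  · have := G_proj
    have : Module.Projective A (GT (PE v)) :=
      Module.Projective.of_split (Gmap (PE v).subtype) (Gmap (toPE v))
        (LinearMap.ext fun m => GT.ext (LinearMap.ext fun y => Subtype.ext (m.1 y).2)
          (Subtype.ext m.2.2))
    exact PD.of_proj
  · have : Subsingleton (GT N) := inferInstanceAs (Subsingleton ((YY →ₗ[B] N) × N))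
    exact PD.of_subsingleton _

end Vale.Agent.P176
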