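import Vale.Agent.P176.Loc

set_option linter.constructorNameAsVariable false

namespace Vale.Agent.P176

open CategoryTheory Limits Pretriangulated HomologicalComplex ZeroObject

theorem strictify {Y0 Y1 Y2 : CC} (h1 : SP Y1) (h2 : SP Y2) (t1 : S → (Y1 ⟶ Y0))
    (t2 : S → (Y2 ⟶ Y1)) (F : Finset S) :
    ∃ (Y : CC) (j : Y1 ⟶ Y) (s1 : S → (Y ⟶ Y0)) (s2 : S → (Y2 ⟶ Y)), SP Y ∧ IsIso (qq.map j) ∧
      (∀ g, j ≫ s1 g = t1 g) ∧ (∀ g, qq.map (s2 g) = qq.map (t2 g ≫ j)) ∧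
      ∀ a ∈ F, ∀ b, s2 a ≫ s1 b = qq.preimage (qq.map (t2 a ≫ t1 b)) := by
  classical
  induction F using Finset.induction_on with
  | empty => exact ⟨Y1, 𝟙 _, t1, t2, h1, inferInstance, by simp, by simp, by simp⟩
  | insert a F ha ih =>
    obtain ⟨Y, j, s1, s2, hY, hj, e1, e2, e3⟩ := ih
    let C := CochainComplex.mappingCone (𝟙 Y2)
    have hC : IsZero (qq.obj C) := (HomotopyCategory.isZero_quotient_obj_iff _).2
      ⟨CochainComplex.mappingCone.homotopyToZeroOfId Y2⟩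
    have hh : ∀ b, Nonempty (Homotopy
        (𝟙 Y2 ≫ (qq.preimage (qq.map (t2 a ≫ t1 b)) - s2 a ≫ s1 b)) 0) := fun b => by
      rw [← HomotopyCategory.quotient_map_eq_zero_iff, Category.id_comp, Functor.map_sub,
        Functor.map_preimage, ← e1 b, qq.map_comp (s2 a), e2, ← Functor.map_comp, Category.assoc,
        sub_self]
    let D : S → (C ⟶ Y0) := fun b => homotopyCofiber.desc (𝟙 Y2) _ (hh b).some
    have hD : ∀ b, CochainComplex.mappingCone.inr (𝟙 Y2) ≫ D b =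
        qq.preimage (qq.map (t2 a ≫ t1 b)) - s2 a ≫ s1 b := fun b =>
      homotopyCofiber.inr_desc _ _ _
    have hinl : IsIso (qq.map (biprod.inl : Y ⟶ Y ⊞ C)) := by
      refine ⟨qq.map biprod.fst, by rw [← Functor.map_comp]; simp, ?_⟩
      have := congrArg qq.map (biprod.total (X := Y) (Y := C))
      rw [Functor.map_add, qq.map_comp, qq.map_comp biprod.snd, hC.eq_of_src (qq.map biprod.inr) 0,
        comp_zero, add_zero, qq.map_id] at this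
      exact this
    refine ⟨Y ⊞ C, j ≫ biprod.inl, fun b => biprod.desc (s1 b) (D b),
      fun g => s2 g ≫ biprod.inl +
        (if g = a then CochainComplex.mappingCone.inr (𝟙 Y2) else 0) ≫ biprod.inr,
      hY.biprod (h2.cone _ h2), ?_, ?_, ?_, ?_⟩
    · rw [Functor.map_comp]; infer_instance
    · intro g; simp [e1]
    · intro g
      rw [Functor.map_add, qq.map_comp _ biprod.inr, hC.eq_of_src (qq.map biprod.inr) 0,
        comp_zero, add_zero, qq.map_comp, e2, ← Functor.map_comp, Category.assoc]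
    · intro g hg b
      simp only [Preadditive.add_comp, Category.assoc, biprod.inl_desc, biprod.inr_desc]
      by_cases hga : g = a
      · subst hga
        rw [if_pos rfl, hD]; abel
      · rw [if_neg hga, zero_comp, add_zero]
        exact e3 g ((Finset.mem_insert.1 hg).resolve_left hga) b

structure TD (Q : TT) (θ : S → (Q ⟶ Q)) where
  Y0 : CC
  Y1 : CC
  Y2 : CC
  sp0 : SP Y0
  sp1 : SP Y1
  sp2 : SP Y2
  t1 : S → (Y1 ⟶ Y0)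
  t2 : S → (Y2 ⟶ Y1)
  i0 : Q ≅ LL.obj (qq.obj Y0)
  i1 : Q ≅ LL.obj (qq.obj Y1)
  i2 : Q ≅ LL.obj (qq.obj Y2)
  c1 : ∀ g, i1.hom ≫ LL.map (qq.map (t1 g)) = θ g ≫ i0.hom
  c2 : ∀ g, i2.hom ≫ LL.map (qq.map (t2 g)) = θ g ≫ i1.hom

theorem exists_TD (Q0 : KK) (θ : S → (LL.obj Q0 ⟶ LL.obj Q0)) (hQ : Perf Q0)
    (hθ : ∀ p q r s, Rel (p, q, r, s) → θ p ≫ θ q = θ r ≫ θ s) :
    ∃ D : TD _ θ, ∀ p q r s, Rel (p, q, r, s) → D.t2 p ≫ D.t1 q = D.t2 r ≫ D.t1 s := by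
  obtain ⟨Z1, w1, f2, hw1, hf2⟩ := common_frac LL WW θ
  let j1 := Localization.isoOfHom LL WW w1 hw1
  obtain ⟨Z0, w0, f1, hw0, hf1⟩ := common_frac LL WW (fun g => j1.inv ≫ θ g)
  have hf1' : ∀ g, LL.map w1 ≫ LL.map (f1 g) = θ g ≫ LL.map w0 := fun g => by
    rw [hf1]; show j1.hom ≫ _ = _; simp
  obtain ⟨Z, w, hw, hrel⟩ := common_eq LL WW
    (fun r : {r : S × S × S × S // Rel r} => f2 r.1.1 ≫ f1 r.1.2.1)
    (fun r => f2 r.1.2.2.1 ≫ f1 r.1.2.2.2) (by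
      rintro ⟨⟨p, q, r, s⟩, h⟩
      simp only [Functor.map_comp, hf2, Category.assoc, hf1']
      rw [← Category.assoc, hθ p q r s h, Category.assoc])
  obtain ⟨Y2, sp2, ⟨e2⟩⟩ := hQ
  obtain ⟨Y1, sp1, ⟨e1⟩⟩ := WW_perf hw1 ⟨Y2, sp2, ⟨e2⟩⟩
  obtain ⟨Y0, sp0, ⟨e0⟩⟩ := WW_perf hw (WW_perf hw0 ⟨Y2, sp2, ⟨e2⟩⟩)
  let t1 : S → (Y1 ⟶ Y0) := fun g => qq.preimage (e1.inv ≫ f1 g ≫ w ≫ e0.hom)
  let t2 : S → (Y2 ⟶ Y1) := fun g => qq.preimage (e2.inv ≫ f2 g ≫ e1.hom)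
  obtain ⟨Y, j, s1, s2, hY, hj, a1, a2, a3⟩ := strictify sp1 sp2 t1 t2 Finset.univ
  refine ⟨⟨Y0, Y, Y2, sp0, hY, sp2, s1, s2,
    Localization.isoOfHom LL WW _ hw0 ≪≫ Localization.isoOfHom LL WW _ hw ≪≫ LL.mapIso e0,
    j1 ≪≫ LL.mapIso (e1 ≪≫ asIso (qq.map j)), LL.mapIso e2, ?_, ?_⟩, ?_⟩
  · intro g
    show (LL.map w1 ≫ LL.map (e1.hom ≫ qq.map j)) ≫ _ = θ g ≫ LL.map w0 ≫ LL.map w ≫ LL.map e0.hom
    rw [Category.assoc, ← LL.map_comp (e1.hom ≫ _), Category.assoc, ← qq.map_comp, a1]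
    simp only [t1, Functor.map_preimage, Iso.hom_inv_id_assoc, Functor.map_comp]
    rw [← Category.assoc, hf1', Category.assoc]
  · intro g
    show LL.map e2.hom ≫ _ = θ g ≫ LL.map w1 ≫ LL.map (e1.hom ≫ qq.map j)
    rw [a2, ← Functor.map_comp]
    simp only [t2, Functor.map_preimage, Iso.hom_inv_id_assoc, Functor.map_comp, Category.assoc, hf2]
  · intro p q r s h
    show s2 p ≫ s1 q = s2 r ≫ s1 s
    rw [a3 p (Finset.mem_univ _), a3 r (Finset.mem_univ _)]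
    congr 1
    have := hrel ⟨(p, q, r, s), h⟩
    simp only [Category.assoc] at this
    simp only [t1, t2, Functor.map_comp, Functor.map_preimage, Category.assoc, Iso.hom_inv_id_assoc]
    rw [reassoc_of% this]

structure KB where
  Y : CC
  sp : SP Y
  R : B →+* (End Y)ᵐᵒᵖ
  coh : ∀ ρ : Rep, (ρ.E0 → ∀ j (f : qq.obj Y ⟶ (sq j).obj (Nm ρ)), f = 0) ∧
    (ρ.Z1 → (∀ j, j ≠ 0 → j ≠ -1 → ∀ f : qq.obj Y ⟶ (sq j).obj (Nm ρ), f = 0) ∧
      ∀ j, (j = 0 ∨ j = -1) → ∃ Γ : Md ρ.al → (qq.obj Y ⟶ (sq j).obj (Nm ρ)),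
        Function.Bijective Γ ∧ (∀ u u', Γ (u + u') = Γ u + Γ u') ∧
        ∀ (b : B) m, qq.map (R b).unop ≫ Γ m = Γ (b • m))

namespace TD
variable {Q : TT} {θ : S → (Q ⟶ Q)} (D : TD Q θ)

noncomputable abbrev Y : CC := D.Y0 ⊞ (D.Y1 ⊞ D.Y2)
noncomputable def p0 : D.Y ⟶ D.Y0 := biprod.fst
noncomputable def p1 : D.Y ⟶ D.Y1 := biprod.snd ≫ biprod.fst
noncomputable def p2 : D.Y ⟶ D.Y2 := biprod.snd ≫ biprod.snd
noncomputable def n0 : D.Y0 ⟶ D.Y := biprod.inl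
noncomputable def n1 : D.Y1 ⟶ D.Y := biprod.inl ≫ biprod.inr
noncomputable def n2 : D.Y2 ⟶ D.Y := biprod.inr ≫ biprod.inr

noncomputable def ev : Fin 3 → (D.Y ⟶ D.Y) := ![D.p0 ≫ D.n0, D.p1 ≫ D.n1, D.p2 ≫ D.n2]

theorem tot : D.p0 ≫ D.n0 + D.p1 ≫ D.n1 + D.p2 ≫ D.n2 = 𝟙 _ := by
  simp only [p0, p1, p2, n0, n1, n2]
  refine biprod.hom_ext' _ _ (by simp) (biprod.hom_ext' _ _ (by simp) (by simp))

def opp {Y : CC} (f : Y ⟶ Y) : (End Y)ᵐᵒᵖ := MulOpposite.op f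

theorem mul_op {Y : CC} (f g : Y ⟶ Y) : opp f * opp g = opp (f ≫ g) := rfl

noncomputable def bdata
    (h : ∀ p q r s, Rel (p, q, r, s) → D.t2 p ≫ D.t1 q = D.t2 r ≫ D.t1 s) :
    BData (End D.Y)ᵐᵒᵖ where
  e v := opp (D.ev v)
  a g := opp (D.p1 ≫ D.t1 g ≫ D.n0)
  b g := opp (D.p2 ≫ D.t2 g ≫ D.n1)
  ee v := by
    rw [mul_op]; congr 1
    fin_cases v <;> simp [ev, p0, p1, p2, n0, n1, n2]
  ee' v w hvw := by
    rw [mul_op]; show _ = opp 0; congr 1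
    fin_cases v <;> fin_cases w <;> first | exact absurd rfl hvw | simp [ev, p0, p1, p2, n0, n1, n2]
  sum := by
    exact congrArg opp D.tot
  ea g := by rw [mul_op]; congr 1; simp [ev, p1, n1]
  ae g := by rw [mul_op]; congr 1; simp [ev, p0, n0]
  eb g := by rw [mul_op]; congr 1; simp [ev, p2, n2]
  be g := by rw [mul_op]; congr 1; simp [ev, p1, n1]
  rel p q r s hr := by
    rw [mul_op, mul_op]; congr 1
    have := h p q r s hr
    simp only [p1, n1, Category.assoc, biprod.inr_snd_assoc, biprod.inl_fst_assoc]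
    rw [reassoc_of% this]

noncomputable def Gam {M : TT} {σ : Rep} (γ : σ.U → (Q ⟶ M)) (m : Md σ) :
    LL.obj (qq.obj D.Y) ⟶ M :=
  LL.map (qq.map D.p0) ≫ D.i0.inv ≫ γ (m 0) + LL.map (qq.map D.p1) ≫ D.i1.inv ≫ γ (m 1) +
    LL.map (qq.map D.p2) ≫ D.i2.inv ≫ γ (m 2)

theorem n0_Gam {M : TT} {σ : Rep} (γ : σ.U → (Q ⟶ M)) (m : Md σ) :
    LL.map (qq.map D.n0) ≫ D.Gam γ m = D.i0.inv ≫ γ (m 0) := by
  simp only [Gam, Preadditive.comp_add, ← Category.assoc, ← Functor.map_comp]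
  simp [p0, p1, p2, n0]

theorem n1_Gam {M : TT} {σ : Rep} (γ : σ.U → (Q ⟶ M)) (m : Md σ) :
    LL.map (qq.map D.n1) ≫ D.Gam γ m = D.i1.inv ≫ γ (m 1) := by
  simp only [Gam, Preadditive.comp_add, ← Category.assoc, ← Functor.map_comp]
  simp [p0, p1, p2, n1]

theorem n2_Gam {M : TT} {σ : Rep} (γ : σ.U → (Q ⟶ M)) (m : Md σ) :
    LL.map (qq.map D.n2) ≫ D.Gam γ m = D.i2.inv ≫ γ (m 2) := by
  simp only [Gam, Preadditive.comp_add, ← Category.assoc, ← Functor.map_comp]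
  simp [p0, p1, p2, n2]

theorem dec {M : TT} (f : LL.obj (qq.obj D.Y) ⟶ M) :
    f = LL.map (qq.map D.p0) ≫ LL.map (qq.map D.n0) ≫ f +
      LL.map (qq.map D.p1) ≫ LL.map (qq.map D.n1) ≫ f +
      LL.map (qq.map D.p2) ≫ LL.map (qq.map D.n2) ≫ f := by
  simp only [← Category.assoc, ← Functor.map_comp, ← Preadditive.add_comp, ← Functor.map_add, D.tot]
  simp

theorem Gam_bij {M : TT} {σ : Rep} (γ : σ.U → (Q ⟶ M)) (h : Function.Bijective γ) :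
    Function.Bijective (D.Gam γ) := by
  constructor
  · intro m m' e
    have e0 := D.n0_Gam γ m
    have e1 := D.n1_Gam γ m
    have e2 := D.n2_Gam γ m
    rw [e, n0_Gam, cancel_epi] at e0
    rw [e, n1_Gam, cancel_epi] at e1
    rw [e, n2_Gam, cancel_epi] at e2
    funext i
    fin_cases i
    exacts [(h.1 e0).symm, (h.1 e1).symm, (h.1 e2).symm]
  · intro f
    obtain ⟨u0, h0⟩ := h.2 (D.i0.hom ≫ LL.map (qq.map D.n0) ≫ f)
    obtain ⟨u1, h1⟩ := h.2 (D.i1.hom ≫ LL.map (qq.map D.n1) ≫ f)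
    obtain ⟨u2, h2⟩ := h.2 (D.i2.hom ≫ LL.map (qq.map D.n2) ≫ f)
    refine ⟨![u0, u1, u2], ?_⟩
    rw [D.dec f]
    show _ ≫ _ ≫ γ u0 + _ ≫ _ ≫ γ u1 + _ ≫ _ ≫ γ u2 = _
    simp [h0, h1, h2]

theorem Gam0 {M : TT} {σ : Rep} (γ : σ.U → (Q ⟶ M)) (g0 : γ 0 = 0) (u : σ.U) :
    D.Gam γ (sng σ 0 u) = LL.map (qq.map D.p0) ≫ D.i0.inv ≫ γ u := by
  show _ ≫ _ ≫ γ u + _ ≫ _ ≫ γ 0 + _ ≫ _ ≫ γ 0 = _
  simp [g0]

theorem Gam1 {M : TT} {σ : Rep} (γ : σ.U → (Q ⟶ M)) (g0 : γ 0 = 0) (u : σ.U) :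
    D.Gam γ (sng σ 1 u) = LL.map (qq.map D.p1) ≫ D.i1.inv ≫ γ u := by
  show _ ≫ _ ≫ γ 0 + _ ≫ _ ≫ γ u + _ ≫ _ ≫ γ 0 = _
  simp [g0]

theorem Gam2 {M : TT} {σ : Rep} (γ : σ.U → (Q ⟶ M)) (g0 : γ 0 = 0) (u : σ.U) :
    D.Gam γ (sng σ 2 u) = LL.map (qq.map D.p2) ≫ D.i2.inv ≫ γ u := by
  show _ ≫ _ ≫ γ 0 + _ ≫ _ ≫ γ 0 + _ ≫ _ ≫ γ u = _
  simp [g0]

theorem van {M : TT} (h : ∀ f : Q ⟶ M, f = 0) (f : LL.obj (qq.obj D.Y) ⟶ M) : f = 0 := by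
  have h0 := h (D.i0.hom ≫ LL.map (qq.map D.n0) ≫ f)
  have h1 := h (D.i1.hom ≫ LL.map (qq.map D.n1) ≫ f)
  have h2 := h (D.i2.hom ≫ LL.map (qq.map D.n2) ≫ f)
  rw [Preadditive.IsIso.comp_left_eq_zero] at h0 h1 h2
  rw [D.dec f, h0, h1, h2]; simp

end TD

theorem exists_KB : Nonempty KB := by
  obtain ⟨Q0, θ, hQ, hθ, coh⟩ := Tlevel
  obtain ⟨D, hD⟩ := exists_TD Q0 θ hQ hθ
  refine ⟨⟨D.Y, D.sp0.biprod (D.sp1.biprod D.sp2), (D.bdata hD).lift.toRingHom, fun ρ => ?_⟩⟩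
  have z : ∀ j, (∀ f : LL.obj Q0 ⟶ LN ρ j, f = 0) →
      ∀ f : qq.obj D.Y ⟶ (sq j).obj (Nm ρ), f = 0 := fun j h f =>
    (LL_bij _ ρ j).1 (by rw [D.van h (LL.map f), Functor.map_zero])
  refine ⟨fun hE j => z j ((coh ρ).1 hE j), fun hZ => ⟨fun j h0 h1 => z j (((coh ρ).2 hZ).1 j h0 h1),
    fun j hj => ?_⟩⟩
  obtain ⟨γ, hb, ha, he⟩ : ∃ γ : ρ.al.U → (LL.obj Q0 ⟶ LN ρ j), Function.Bijective γ ∧
        (∀ u u', γ (u + u') = γ u + γ u') ∧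
        ∀ g u, θ g ≫ γ u = γ ((ρ.al.f g).1 u) := ((coh ρ).2 hZ).2 j hj
  have g0 : γ 0 = 0 := by
    have := ha 0 0
    rw [add_zero] at this
    exact left_eq_add.1 this
  let E := Equiv.ofBijective _ (LL_bij (qq.obj D.Y) ρ j)
  have hE : ∀ f, LL.map (E.symm f) = f := fun f => E.apply_symm_apply f
  have hadd : ∀ u u' : Md ρ.al, D.Gam γ (u + u') = D.Gam γ u + D.Gam γ u' := fun u u' => by
    have : ∀ i, (u + u') i = u i + u' i := fun _ => rfl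
    simp only [TD.Gam, this, ha, Preadditive.comp_add]
    abel
  refine ⟨fun m => E.symm (D.Gam γ m), E.symm.bijective.comp (D.Gam_bij γ hb), ?_, ?_⟩
  · intro u u'
    apply (LL_bij _ ρ j).1
    rw [Functor.map_add, hE, hE, hE, hadd]
  · intro b m
    apply (LL_bij _ ρ j).1
    rw [Functor.map_comp, hE, hE]
    show LL.map (qq.map ((D.bdata hD).lift b).unop) ≫ _ = _
    induction b using B_ind generalizing m with
    | he v =>
      rw [BData.lift_e, md_e]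
      show LL.map (qq.map (D.ev v)) ≫ _ = D.Gam γ (sng _ v _)
      fin_cases v
      · show LL.map (qq.map (D.p0 ≫ D.n0)) ≫ _ = D.Gam γ (sng _ 0 _)
        rw [Functor.map_comp, Functor.map_comp, Category.assoc, TD.n0_Gam, D.Gam0 γ g0]; rfl
      · show LL.map (qq.map (D.p1 ≫ D.n1)) ≫ _ = D.Gam γ (sng _ 1 _)
        rw [Functor.map_comp, Functor.map_comp, Category.assoc, TD.n1_Gam, D.Gam1 γ g0]; rfl
      · show LL.map (qq.map (D.p2 ≫ D.n2)) ≫ _ = D.Gam γ (sng _ 2 _)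
        rw [Functor.map_comp, Functor.map_comp, Category.assoc, TD.n2_Gam, D.Gam2 γ g0]; rfl
    | ha g =>
      rw [BData.lift_a, md_a]
      show LL.map (qq.map (D.p1 ≫ D.t1 g ≫ D.n0)) ≫ _ = D.Gam γ (sng _ 1 _)
      simp only [Functor.map_comp, Category.assoc, TD.n0_Gam]
      have := D.c1 g
      rw [← Iso.eq_inv_comp] at this
      rw [this, D.Gam1 γ g0]
      simp only [Category.assoc, Iso.hom_inv_id_assoc, he]
    | hb g =>
      rw [BData.lift_b, md_b]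
      show LL.map (qq.map (D.p2 ≫ D.t2 g ≫ D.n1)) ≫ _ = D.Gam γ (sng _ 2 _)
      simp only [Functor.map_comp, Category.assoc, TD.n1_Gam]
      have := D.c2 g
      rw [← Iso.eq_inv_comp] at this
      rw [this, D.Gam2 γ g0]
      simp only [Category.assoc, Iso.hom_inv_id_assoc, he]
    | h0 =>
      rw [map_zero, zero_smul]
      show LL.map (qq.map 0) ≫ _ = _ ≫ _ ≫ γ 0 + _ ≫ _ ≫ γ 0 + _ ≫ _ ≫ γ 0
      simp [g0]
    | hadd x y hx hy =>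
      rw [map_add, add_smul, hadd, ← hx, ← hy]
      show LL.map (qq.map (_ + _)) ≫ _ = _
      rw [Functor.map_add, Functor.map_add, Preadditive.add_comp]
    | hmul x y hx hy =>
      rw [map_mul, mul_smul, ← hx, ← hy]
      show LL.map (qq.map (_ ≫ _)) ≫ _ = _
      rw [Functor.map_comp, Functor.map_comp, Category.assoc]

end Vale.Agent.P176
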