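import Vale.Agent.P176.Strict

set_option linter.constructorNameAsVariable false

namespace Vale.Agent.P176

open CategoryTheory Limits HomologicalComplex

structure Bim where
  Y : Type
  [ab : AddCommGroup Y]
  [md : Module B Y]
  [fin : Finite Y]
  [proj : Module.Projective B Y]
  r : B → Module.End B Y
  r_add : ∀ a b, r (a + b) = r a + r b
  r_mul : ∀ a b, r (a * b) = r b * r a
  r_one : r 1 = 1
  n : ℕ
  p : ℕ → Module.End B Y
  d : Module.End B Y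
  pp : ∀ i, p i * p i = p i
  pp' : ∀ i j, i ≠ j → p i * p j = 0
  psum : ∑ i ∈ Finset.range (2 * n + 1), p i = 1
  dd : d * d = 0
  dp : ∀ i, d * p (i + 1) = p i * d
  dp0 : d * p 0 = 0
  rp : ∀ b i, r b * p i = p i * r b
  rd : ∀ b, r b * d = d * r b
  coh : ∀ ρ : Rep,
    (ρ.E0 → ∀ i (φ : Y →ₗ[B] Md ρ), φ ∘ₗ p i = φ → φ ∘ₗ d = 0 → ∃ ψ : Y →ₗ[B] Md ρ, φ = ψ ∘ₗ d) ∧
    (ρ.Z1 → (∀ i, i ≠ n → i ≠ n + 1 → ∀ φ : Y →ₗ[B] Md ρ, φ ∘ₗ p i = φ → φ ∘ₗ d = 0 →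
        ∃ ψ : Y →ₗ[B] Md ρ, φ = ψ ∘ₗ d) ∧
      ∀ i, (i = n ∨ i = n + 1) →
        ∃ κ : (φ : Y →ₗ[B] Md ρ) → φ ∘ₗ p i = φ → φ ∘ₗ d = 0 → Md ρ.al,
          (∀ φ φ' h1 h2 h3 h4 h5 h6, κ (φ + φ') h1 h2 = κ φ h3 h4 + κ φ' h5 h6) ∧
          (∀ (b : B) φ h1 h2 h3 h4, κ (φ ∘ₗ r b) h1 h2 = b • κ φ h3 h4) ∧
          (∀ m, ∃ φ h1 h2, κ φ h1 h2 = m) ∧
          ∀ φ h1 h2, κ φ h1 h2 = 0 ↔ ∃ ψ : Y →ₗ[B] Md ρ, φ = ψ ∘ₗ d)

attribute [instance] Bim.ab Bim.md Bim.fin Bim.proj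

section
variable (Y : CC) (n : ℕ)

noncomputable abbrev II : Finset ℤ := Finset.Icc (-(n : ℤ)) n

noncomputable def Tt : ModuleCat.{0} B := ⨁ (fun j : II n => Y.X j.1)

open Classical in
noncomputable def io (m : ℤ) : Y.X m ⟶ Tt Y n :=
  if h : m ∈ II n then biproduct.ι (fun j : II n => Y.X j.1) ⟨m, h⟩ else 0

open Classical in
noncomputable def pr (m : ℤ) : Tt Y n ⟶ Y.X m :=
  if h : m ∈ II n then biproduct.π (fun j : II n => Y.X j.1) ⟨m, h⟩ else 0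

variable {Y n}

theorem io_pos {m : ℤ} (h : m ∈ II n) :
    io Y n m = biproduct.ι (fun j : II n => Y.X j.1) ⟨m, h⟩ := dif_pos h
theorem pr_pos {m : ℤ} (h : m ∈ II n) :
    pr Y n m = biproduct.π (fun j : II n => Y.X j.1) ⟨m, h⟩ := dif_pos h
theorem io_neg {m : ℤ} (h : m ∉ II n) : io Y n m = 0 := dif_neg h
theorem pr_neg {m : ℤ} (h : m ∉ II n) : pr Y n m = 0 := dif_neg h

variable (hY : ∀ i : ℤ, (i < -(n : ℤ) ∨ (n : ℤ) < i) → IsZero (Y.X i))

include hY in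
theorem zero_of {m : ℤ} (h : m ∉ II n) : IsZero (Y.X m) := hY m (by
  simp only [II, Finset.mem_Icc] at h; omega)

include hY in
theorem io_pr (m : ℤ) : io Y n m ≫ pr Y n m = 𝟙 _ := by
  by_cases h : m ∈ II n
  · rw [io_pos h, pr_pos h]
    exact biproduct.ι_π_self (fun j : II n => Y.X j.1) ⟨m, h⟩
  · exact (zero_of hY h).eq_of_src _ _

theorem io_pr' {m k : ℤ} (hmk : m ≠ k) : io Y n m ≫ pr Y n k = 0 := by
  by_cases h : m ∈ II n
  · by_cases h' : k ∈ II n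
    · rw [io_pos h, pr_pos h']
      exact biproduct.ι_π_ne (fun j : II n => Y.X j.1) (j := ⟨m, h⟩) (j' := ⟨k, h'⟩)
        (fun e => hmk (congrArg Subtype.val e))
    · rw [pr_neg h', comp_zero]
  · rw [io_neg h, zero_comp]

theorem Tt_ext {M : ModuleCat.{0} B} {f g : Tt Y n ⟶ M}
    (h : ∀ m, io Y n m ≫ f = io Y n m ≫ g) : f = g := by
  refine biproduct.hom_ext' _ _ fun j => ?_
  have := h j.1
  rw [io_pos j.2] at this
  exact this

include hY in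
theorem io_sum {M : ModuleCat.{0} B} (g : ∀ j, Y.X j ⟶ M) (m : ℤ) :
    io Y n m ≫ ∑ j ∈ II n, pr Y n j ≫ g j = g m := by
  by_cases h : m ∈ II n
  · rw [Preadditive.comp_sum, Finset.sum_eq_single m]
    · rw [← Category.assoc, io_pr hY, Category.id_comp]
    · intro k _ hk
      rw [← Category.assoc, io_pr' hk.symm, zero_comp]
    · intro h'; exact absurd h h'
  · exact (zero_of hY h).eq_of_src _ _

variable (Y n)
noncomputable def dT : Tt Y n ⟶ Tt Y n :=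
  ∑ j ∈ II n, pr Y n j ≫ Y.d j (j + 1) ≫ io Y n (j + 1)

noncomputable def pT' (m : ℤ) : Tt Y n ⟶ Tt Y n := pr Y n m ≫ io Y n m

noncomputable def fT (f : Y ⟶ Y) : Tt Y n ⟶ Tt Y n :=
  ∑ j ∈ II n, pr Y n j ≫ f.f j ≫ io Y n j
variable {Y n}

include hY

@[reassoc]
theorem io_d (m : ℤ) : io Y n m ≫ dT Y n = Y.d m (m + 1) ≫ io Y n (m + 1) := io_sum hY _ m

@[reassoc]
theorem io_f (f : Y ⟶ Y) (m : ℤ) : io Y n m ≫ fT Y n f = f.f m ≫ io Y n m := io_sum hY _ m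

@[reassoc]
theorem io_p (m : ℤ) : io Y n m ≫ pT' Y n m = io Y n m := by
  rw [pT', ← Category.assoc, io_pr hY, Category.id_comp]

omit hY in
@[reassoc]
theorem io_p' {m k : ℤ} (h : m ≠ k) : io Y n m ≫ pT' Y n k = 0 := by
  rw [pT', ← Category.assoc, io_pr' h, zero_comp]

theorem d_pr (m : ℤ) : dT Y n ≫ pr Y n (m + 1) = pr Y n m ≫ Y.d m (m + 1) := by
  refine Tt_ext fun k => ?_
  rw [io_d_assoc hY]
  by_cases h : k = m
  · subst h; rw [io_pr hY, ← Category.assoc, io_pr hY]; simp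
  · rw [io_pr' (by omega), ← Category.assoc, io_pr' h]; simp

noncomputable def cc {N : ModuleCat.{0} B} (m : ℤ) (φ : Tt Y n ⟶ N) (h : dT Y n ≫ φ = 0) :
    qq.obj Y ⟶ (sq m).obj N :=
  qq.map (mkHomToSingle (io Y n m ≫ φ) (by
    rintro i (rfl : i + 1 = m)
    rw [← io_d_assoc hY, h, comp_zero]))

theorem cc_add {N : ModuleCat.{0} B} (m : ℤ) (φ φ' : Tt Y n ⟶ N) (h h' h'') :
    cc hY m (φ + φ') h = cc hY m φ h' + cc hY m φ' h'' := by
  simp only [cc]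
  rw [← Functor.map_add]
  congr 1
  apply to_single_hom_ext
  simp

theorem cc_f {N : ModuleCat.{0} B} (m : ℤ) (f : Y ⟶ Y) (φ : Tt Y n ⟶ N) (h h') :
    cc hY m (fT Y n f ≫ φ) h = qq.map f ≫ cc hY m φ h' := by
  simp only [cc]
  rw [← Functor.map_comp]
  congr 1
  apply to_single_hom_ext
  simp [io_f_assoc hY]

theorem cc_surj {N : ModuleCat.{0} B} (m : ℤ) (f : qq.obj Y ⟶ (sq m).obj N) :
    ∃ (φ : Tt Y n ⟶ N) (h : dT Y n ≫ φ = 0), pT' Y n m ≫ φ = φ ∧ cc hY m φ h = f := by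
  obtain ⟨f, rfl⟩ := qq.map_surjective f
  refine ⟨pr Y n m ≫ f.f m ≫ (singleObjXSelf _ m N).hom, ?_, ?_, ?_⟩
  · obtain ⟨k, rfl⟩ : ∃ k, m = k + 1 := ⟨m - 1, by ring⟩
    rw [← Category.assoc, d_pr hY, Category.assoc, ← f.comm_assoc]
    simp
  · rw [pT', Category.assoc, ← Category.assoc (io Y n m), io_pr hY, Category.id_comp]
  · simp only [cc]
    congr 1
    apply to_single_hom_ext
    rw [mkHomToSingle_f, ← Category.assoc (io Y n m), io_pr hY]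
    simp

theorem cc_zero {N : ModuleCat.{0} B} (m : ℤ) (φ : Tt Y n ⟶ N) (h) (hp : pT' Y n m ≫ φ = φ) :
    cc hY m φ h = 0 ↔ ∃ ψ, φ = dT Y n ≫ ψ := by
  refine (toSingle_zero_iff _).trans ?_
  simp only [mkHomToSingle_f, Category.assoc, Iso.inv_hom_id, Category.comp_id]
  constructor
  · rintro ⟨ψ, hψ⟩
    refine ⟨pr Y n (m + 1) ≫ ψ, ?_⟩
    rw [← Category.assoc, d_pr hY, Category.assoc, ← hψ, ← Category.assoc]
    exact hp.symm
  · rintro ⟨ψ, rfl⟩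
    exact ⟨io Y n (m + 1) ≫ ψ, by rw [io_d_assoc hY]⟩

end

theorem exists_Bim : Nonempty Bim := by
  obtain ⟨K⟩ := exists_KB
  obtain ⟨hfp, n, hY⟩ := K.sp
  have hproj : Projective (Tt K.Y n) := by
    have := fun j => (hfp j).1
    unfold Tt; infer_instance
  have hfin : Finite (Tt K.Y n) := by
    have := fun j => (hfp j).2
    exact Finite.of_equiv _
      (ModuleCat.biproductIsoPi (fun j : II n => K.Y.X j.1)).symm.toLinearEquiv.toEquiv
  have hproj' : Module.Projective B (Tt K.Y n) := by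
    rw [IsProjective.iff_projective]; exact hproj
  have E : ∀ {f g : Tt K.Y n ⟶ Tt K.Y n}, (∀ m, io K.Y n m ≫ f = io K.Y n m ≫ g) → f.hom = g.hom :=
    fun h => congrArg _ (Tt_ext h)
  have ex : ∀ (ρ : Rep) (i : ℕ), (∀ f : qq.obj K.Y ⟶ (sq ((n : ℤ) - i)).obj (Nm ρ), f = 0) →
      ∀ φ : Tt K.Y n →ₗ[B] Md ρ, φ ∘ₗ (pT' K.Y n ((n : ℤ) - i)).hom = φ → φ ∘ₗ (dT K.Y n).hom = 0 →
        ∃ ψ : Tt K.Y n →ₗ[B] Md ρ, φ = ψ ∘ₗ (dT K.Y n).hom := by
    intro ρ i h φ h1 h2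
    obtain ⟨ψ, hψ⟩ := (cc_zero hY (N := Nm ρ) ((n : ℤ) - i) (ModuleCat.ofHom φ)
      (ModuleCat.hom_ext h2) (ModuleCat.hom_ext h1)).1 (h _)
    exact ⟨ψ.hom, congrArg ModuleCat.Hom.hom hψ⟩
  refine ⟨{ Y := Tt K.Y n
            r := fun b => (fT K.Y n (K.R b).unop).hom
            n := n
            p := fun i => (pT' K.Y n ((n : ℤ) - i)).hom
            d := (dT K.Y n).hom
            r_add := ?_, r_mul := ?_, r_one := ?_, pp := ?_, pp' := ?_, psum := ?_, dd := ?_,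
            dp := ?_, dp0 := ?_, rp := ?_, rd := ?_, coh := ?_ }⟩
  · intro a b
    refine E (g := fT K.Y n (K.R a).unop + fT K.Y n (K.R b).unop) fun m => ?_
    rw [Preadditive.comp_add, io_f hY, io_f hY, io_f hY, map_add, ← Preadditive.add_comp]
    rfl
  · intro a b
    refine E (g := fT K.Y n (K.R a).unop ≫ fT K.Y n (K.R b).unop) fun m => ?_
    rw [io_f_assoc hY, io_f hY, io_f hY, map_mul, ← Category.assoc]
    rfl
  · refine E (g := 𝟙 _) fun m => ?_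
    rw [io_f hY, map_one, Category.comp_id]
    exact Category.id_comp _
  · intro i
    refine E (f := pT' _ _ _ ≫ pT' _ _ _) fun m => ?_
    by_cases h : m = n - i
    · subst h; rw [io_p_assoc hY]
    · rw [io_p'_assoc h, io_p' h, zero_comp]
  · intro i j hij
    refine E (f := pT' _ _ _ ≫ pT' _ _ _) (g := 0) fun m => ?_
    by_cases h : m = n - j
    · subst h; rw [io_p_assoc hY, io_p' (by omega), comp_zero]
    · rw [io_p'_assoc h, zero_comp, comp_zero]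
  · rw [← ModuleCat.hom_sum]
    refine E (g := 𝟙 _) fun m => ?_
    by_cases h : m ∈ II n
    · simp only [II, Finset.mem_Icc] at h
      rw [Preadditive.comp_sum, Finset.sum_eq_single ((n : ℤ) - m).toNat]
      · rw [show (n : ℤ) - (((n : ℤ) - m).toNat : ℕ) = m by omega, io_p hY, Category.comp_id]
      · intro k _ hk
        exact io_p' (by omega)
      · intro h'; exact absurd (Finset.mem_range.2 (by omega)) h'
    · exact (zero_of hY h).eq_of_src _ _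
  · refine E (f := dT _ _ ≫ dT _ _) (g := 0) fun m => ?_
    rw [io_d_assoc hY, io_d hY]; simp
  · intro i
    refine E (f := pT' _ _ _ ≫ dT _ _) (g := dT _ _ ≫ pT' _ _ _) fun m => ?_
    rw [io_d_assoc hY]
    by_cases h : m = n - (i + 1 : ℕ)
    · subst h
      rw [io_p_assoc hY, io_d hY]
      congr 1
      rw [show (n : ℤ) - i = (n : ℤ) - (i + 1 : ℕ) + 1 by push_cast; ring, io_p hY]
    · rw [io_p'_assoc h, io_p' (by omega), zero_comp, comp_zero]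
  · refine E (f := pT' _ _ _ ≫ dT _ _) (g := 0) fun m => ?_
    by_cases h : m = n - (0 : ℕ)
    · subst h
      rw [io_p_assoc hY, io_d hY, (hY _ (by omega)).eq_of_src (io K.Y n _) 0]; simp
    · rw [io_p'_assoc h, zero_comp, comp_zero]
  · intro b i
    refine E (f := pT' _ _ _ ≫ fT _ _ _) (g := fT _ _ _ ≫ pT' _ _ _) fun m => ?_
    rw [io_f_assoc hY]
    by_cases h : m = n - i
    · subst h; rw [io_p_assoc hY, io_p hY, io_f hY]
    · rw [io_p'_assoc h, io_p' h, zero_comp, comp_zero]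
  · intro b
    refine E (f := dT _ _ ≫ fT _ _ _) (g := fT _ _ _ ≫ dT _ _) fun m => ?_
    rw [io_f_assoc hY, io_d_assoc hY, io_f hY, io_d hY, Hom.comm_assoc]
  · intro ρ
    refine ⟨fun hE i => ex ρ i ((K.coh ρ).1 hE _), fun hZ => ⟨fun i h0 h1 =>
      ex ρ i (((K.coh ρ).2 hZ).1 _ (by omega) (by omega)), fun i hi => ?_⟩⟩
    obtain ⟨Γ, hb, ha, he⟩ := ((K.coh ρ).2 hZ).2 ((n : ℤ) - i) (by omega)
    let G := Equiv.ofBijective _ hb
    have hG : ∀ f, Γ (G.symm f) = f := fun f => G.apply_symm_apply f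
    have g0 : Γ 0 = 0 := by
      have := ha 0 0
      rw [add_zero] at this
      exact left_eq_add.1 this
    refine ⟨fun φ _ h2 => G.symm (cc hY (N := Nm ρ) ((n : ℤ) - i) (ModuleCat.ofHom φ)
      (ModuleCat.hom_ext h2)), ?_, ?_, ?_, ?_⟩
    · intro φ φ' h1 h2 h3 h4 h5 h6
      apply hb.1
      rw [ha, hG, hG, hG]
      exact cc_add hY _ (ModuleCat.ofHom φ) (ModuleCat.ofHom φ') _ _ _
    · intro b φ h1 h2 h3 h4
      apply hb.1
      rw [← he, hG, hG]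
      exact cc_f hY _ _ (ModuleCat.ofHom φ) _ _
    · intro m
      obtain ⟨φ, h1, h2, h3⟩ := cc_surj hY _ (Γ m)
      refine ⟨φ.hom, congrArg ModuleCat.Hom.hom h2, congrArg ModuleCat.Hom.hom h1, ?_⟩
      apply hb.1
      rw [hG]; exact h3
    · intro φ h1 h2
      rw [← hb.1.eq_iff, hG, g0]
      refine (cc_zero hY (N := Nm ρ) ((n : ℤ) - i) (ModuleCat.ofHom φ) (ModuleCat.hom_ext h2)
        (ModuleCat.hom_ext h1)).trans ?_
      exact ⟨fun ⟨ψ, h⟩ => ⟨ψ.hom, congrArg ModuleCat.Hom.hom h⟩,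
        fun ⟨ψ, h⟩ => ⟨ModuleCat.ofHom ψ, ModuleCat.hom_ext h⟩⟩

end Vale.Agent.P176
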